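import Vale.Agent.Lib.P254.OSum.DefsT

/-! T5. Bathtub principle inside a domain `D` (ADAPT `BathtubG.lean`).
ROUTE `bathtub_dom`: `K = D ∩ {0 ≤ w}` compact, `B ⊆ D` compact: `w < 0` on `B \ K` (a point of `B \ K` is in `D`,
so `w < 0` there) and `w ≥ 0` on `K \ B`, so `∫_B w ≤ ∫_{B ∩ K} w ≤ ∫_K w`.
ROUTE `integral_pos_dom`: `interior D ∩ {0 < w}` is open, contains `0`, is contained in `K`, and `w > 0` on it. -/

namespace Vale.Agent.Lib.P254.OSum

open MeasureTheory Set Vale.Agent.Lib.P254 Vale.Agent.Lib.P254.Orl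

theorem bathtub_dom {n : ℕ} (w : (Fin n → ℝ) → ℝ) (hw : Continuous w) (D : Set (Fin n → ℝ))
    (kK : IsCompact (D ∩ {x | 0 ≤ w x})) (B : Set (Fin n → ℝ)) (kB : IsCompact B) (hBD : B ⊆ D) :
    ∫ x in B, w x ≤ ∫ x in D ∩ {x | 0 ≤ w x}, w x := by
  have mB : MeasurableSet B := kB.measurableSet
  have mK : MeasurableSet (D ∩ {x | 0 ≤ w x}) := kK.measurableSet
  have iB : IntegrableOn w B volume := hw.continuousOn.integrableOn_compact kB
  have iK : IntegrableOn w (D ∩ {x | 0 ≤ w x}) volume := hw.continuousOn.integrableOn_compact kK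
  have h1 := integral_inter_add_sdiff (μ := volume) mK iB
  have h2 := integral_inter_add_sdiff (μ := volume) mB iK
  have h3 : ∫ x in B \ (D ∩ {x | 0 ≤ w x}), w x ≤ 0 := by
    apply setIntegral_nonpos (mB.diff mK)
    intro x hx
    have : ¬ (0 ≤ w x) := fun h => hx.2 ⟨hBD hx.1, h⟩
    linarith
  have h4 : 0 ≤ ∫ x in (D ∩ {x | 0 ≤ w x}) \ B, w x := by
    apply setIntegral_nonneg (mK.diff mB)
    intro x hx
    exact hx.1.2
  rw [inter_comm] at h2
  linarith

theorem integral_pos_dom {n : ℕ} (w : (Fin n → ℝ) → ℝ) (hw : Continuous w) (D : Set (Fin n → ℝ))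
    (kK : IsCompact (D ∩ {x | 0 ≤ w x})) (hD : (0 : Fin n → ℝ) ∈ interior D) (h0 : 0 < w 0) :
    0 < ∫ x in D ∩ {x | 0 ≤ w x}, w x := by
  have mK : MeasurableSet (D ∩ {x | 0 ≤ w x}) := kK.measurableSet
  have iK : IntegrableOn w (D ∩ {x | 0 ≤ w x}) volume := hw.continuousOn.integrableOn_compact kK
  rw [setIntegral_pos_iff_support_of_nonneg_ae _ iK]
  · have hU : IsOpen (interior D ∩ {x : Fin n → ℝ | 0 < w x}) :=
      isOpen_interior.inter (isOpen_lt continuous_const hw)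
    have hU0 : (interior D ∩ {x : Fin n → ℝ | 0 < w x}).Nonempty := ⟨0, hD, h0⟩
    refine lt_of_lt_of_le (hU.measure_pos volume hU0) (measure_mono ?_)
    intro x hx
    have hx' : 0 < w x := hx.2
    refine ⟨?_, interior_subset hx.1, ?_⟩
    · rw [Function.mem_support]
      exact ne_of_gt hx'
    · exact le_of_lt hx'
  · rw [Filter.EventuallyLE, ae_restrict_iff' mK]
    refine Filter.Eventually.of_forall fun x hx => ?_
    exact hx.2

end Vale.Agent.Lib.P254.OSum
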