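import Vale.Agent.Lib.P254.OSum.Defs

/-! O15. General bathtub principle and positivity.  ROUTE: copy the proofs of `bathtub` and `integral_w_pos`
in `Vale/Agent/Lib/P254/Orl/Bathtub.lean` (they only use continuity of `w`, compactness and `K = {0 ≤ w}`):
`∫_B w ≤ ∫_{B ∩ K} w ≤ ∫_K w` since `w < 0` on `B \ K` and `w ≥ 0` on `K \ B`.
Positivity: `{x | 0 < w x}` is open, contains `0`, so it has positive measure. -/

namespace Vale.Agent.Lib.P254.OSum

open MeasureTheory Set Vale.Agent.Lib.P254 Vale.Agent.Lib.P254.Orl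

theorem bathtub_gen {n : ℕ} (w : (Fin n → ℝ) → ℝ) (hw : Continuous w)
    (kK : IsCompact {x | 0 ≤ w x}) (B : Set (Fin n → ℝ)) (kB : IsCompact B) :
    ∫ x in B, w x ≤ ∫ x in {x | 0 ≤ w x}, w x := by
  have mB : MeasurableSet B := kB.measurableSet
  have mK : MeasurableSet {x | 0 ≤ w x} := kK.measurableSet
  have iB : IntegrableOn w B volume := hw.continuousOn.integrableOn_compact kB
  have iK : IntegrableOn w {x | 0 ≤ w x} volume := hw.continuousOn.integrableOn_compact kK
  have h1 := integral_inter_add_sdiff (μ := volume) mK iB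
  have h2 := integral_inter_add_sdiff (μ := volume) mB iK
  have h3 : ∫ x in B \ {x | 0 ≤ w x}, w x ≤ 0 := by
    apply setIntegral_nonpos (mB.diff mK)
    intro x hx
    have : ¬ (0 ≤ w x) := hx.2
    linarith
  have h4 : 0 ≤ ∫ x in {x | 0 ≤ w x} \ B, w x := by
    apply setIntegral_nonneg (mK.diff mB)
    intro x hx
    exact hx.1
  rw [inter_comm] at h2
  linarith

theorem integral_pos_gen {n : ℕ} (w : (Fin n → ℝ) → ℝ) (hw : Continuous w)
    (kK : IsCompact {x | 0 ≤ w x}) (h0 : 0 < w 0) :
    0 < ∫ x in {x | 0 ≤ w x}, w x := by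
  have mK : MeasurableSet {x | 0 ≤ w x} := kK.measurableSet
  have iK : IntegrableOn w {x | 0 ≤ w x} volume := hw.continuousOn.integrableOn_compact kK
  rw [setIntegral_pos_iff_support_of_nonneg_ae _ iK]
  · have hU : IsOpen {x : Fin n → ℝ | 0 < w x} := isOpen_lt continuous_const hw
    have hU0 : ({x : Fin n → ℝ | 0 < w x}).Nonempty := ⟨0, h0⟩
    refine lt_of_lt_of_le (hU.measure_pos volume hU0) (measure_mono ?_)
    intro x hx
    have hx' : 0 < w x := hx
    refine ⟨?_, ?_⟩
    · rw [Function.mem_support]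
      exact ne_of_gt hx'
    · exact le_of_lt hx'
  · rw [Filter.EventuallyLE, ae_restrict_iff' mK]
    refine Filter.Eventually.of_forall fun x hx => ?_
    exact hx

end Vale.Agent.Lib.P254.OSum
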