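import Vale.Agent.Lib.P254.OSum.Gauge

/-! O8. `meanU u K` is convex on `ℝ`.
ROUTE: for fixed `z`, `s ↦ u (s * gauge K z)` is convex (`hu.conv` composed with a linear map; do it by
hand from `hu.conv.2`).  For each `s`, `z ↦ u (s * gauge K z)` is continuous (`hu.continuous`,
`continuous_gaugeK`), hence integrable on the compact `K`.  Then `integral_mono` + `integral_add` +
`integral_const_mul`, and multiply by `(vol K)⁻¹ ≥ 0`. -/

namespace Vale.Agent.Lib.P254.OSum

open MeasureTheory Set Vale.Agent.Lib.P254 Vale.Agent.Lib.P254.Orl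

theorem convexOn_meanU {p : ℕ} {K : Set (Fin p → ℝ)} (hK : IsConvexBody K) (sK : Solid K)
    {u : ℝ → ℝ} (hu : IsYoung u) : ConvexOn ℝ univ (meanU u K) := by
  have hint : ∀ s : ℝ, IntegrableOn (fun z => u (s * gauge K z)) K := by
    intro s
    have hc : Continuous (fun z => u (s * gauge K z)) :=
      hu.continuous.comp (continuous_const.mul (continuous_gaugeK hK sK))
    exact hc.continuousOn.integrableOn_compact hK.1
  refine ⟨convex_univ, ?_⟩
  intro s _ t _ a b ha hb hab
  unfold meanU
  have hv : 0 ≤ (vol K)⁻¹ := inv_nonneg.mpr (by unfold vol; exact ENNReal.toReal_nonneg)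
  simp only [smul_eq_mul]
  have h1 : ∫ z in K, u ((a * s + b * t) * gauge K z)
      ≤ ∫ z in K, (a * u (s * gauge K z) + b * u (t * gauge K z)) := by
    apply integral_mono (hint _) (((hint s).const_mul a).add ((hint t).const_mul b))
    intro z
    have h2 := hu.conv.2 (mem_univ (s * gauge K z)) (mem_univ (t * gauge K z)) ha hb hab
    simp only [smul_eq_mul] at h2
    have e : (a * s + b * t) * gauge K z = a * (s * gauge K z) + b * (t * gauge K z) := by ring
    show u ((a * s + b * t) * gauge K z) ≤ a * u (s * gauge K z) + b * u (t * gauge K z)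
    rw [e]
    exact h2
  rw [integral_add ((hint s).const_mul a) ((hint t).const_mul b), integral_const_mul,
    integral_const_mul] at h1
  calc (vol K)⁻¹ * ∫ z in K, u ((a * s + b * t) * gauge K z)
      ≤ (vol K)⁻¹ * (a * (∫ z in K, u (s * gauge K z)) + b * (∫ z in K, u (t * gauge K z))) :=
        mul_le_mul_of_nonneg_left h1 hv
    _ = a * ((vol K)⁻¹ * ∫ z in K, u (s * gauge K z))
        + b * ((vol K)⁻¹ * ∫ z in K, u (t * gauge K z)) := by ring

end Vale.Agent.Lib.P254.OSum
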