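import Vale.Agent.Lib.P254.OSum.Defs

/-! O4. Supporting line of a convex function on `ℝ`, and the resulting weighted Jensen inequality.
ROUTE `supporting_line`: `k = sSup {(U r - U a)/(r - a) | a < r}` (nonempty; bounded above by
`U (r+1) - U r`), using `ConvexOn.slope_mono_adjacent`.
ROUTE `jensen_step`: `r = A1 / A0`.  Pointwise `s^p * U s ≥ s^p * U r + k * (s^(p+1) - r * s^p)`; integrate
(`integral_mono`), and `A1 - r * A0 = 0`. -/

namespace Vale.Agent.Lib.P254.OSum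

open MeasureTheory Set Vale.Agent.Lib.P254 Vale.Agent.Lib.P254.Orl

theorem supporting_line {U : ℝ → ℝ} (hU : ConvexOn ℝ univ U) (r : ℝ) :
    ∃ k : ℝ, ∀ s : ℝ, U r + k * (s - r) ≤ U s := by
  set S : Set ℝ := (fun a => (U r - U a) / (r - a)) '' Iio r with hS
  have hne : S.Nonempty := ⟨_, ⟨r - 1, by simp, rfl⟩⟩
  have hub : ∀ b, r < b → ∀ x ∈ S, x ≤ (U b - U r) / (b - r) := by
    rintro b hb _ ⟨a, ha, rfl⟩
    exact hU.slope_mono_adjacent (mem_univ a) (mem_univ b) ha hb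
  have hbdd : BddAbove S := ⟨_, hub (r + 1) (by linarith)⟩
  refine ⟨sSup S, fun s => ?_⟩
  rcases lt_trichotomy s r with h | h | h
  · have h1 : (U r - U s) / (r - s) ≤ sSup S := le_csSup hbdd ⟨s, h, rfl⟩
    rw [div_le_iff₀ (by linarith)] at h1
    linarith
  · subst h; simp
  · have h1 : sSup S ≤ (U s - U r) / (s - r) := csSup_le hne (hub s h)
    rw [le_div_iff₀ (by linarith)] at h1
    linarith

theorem jensen_step {q p : ℕ} (s : (Fin q → ℝ) → ℝ) (hs : ∀ y, 0 ≤ s y) (U : ℝ → ℝ)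
    (hU : ConvexOn ℝ univ U)
    (i0 : Integrable (fun y => s y ^ p)) (i1 : Integrable (fun y => s y ^ (p + 1)))
    (i2 : Integrable (fun y => s y ^ p * U (s y))) (hpos : 0 < ∫ y, s y ^ p) :
    (∫ y, s y ^ p) * U ((∫ y, s y ^ (p + 1)) / ∫ y, s y ^ p) ≤ ∫ y, s y ^ p * U (s y) := by
  obtain ⟨k, hk⟩ := supporting_line hU ((∫ y, s y ^ (p + 1)) / ∫ y, s y ^ p)
  set A0 := ∫ y, s y ^ p with hA0
  set A1 := ∫ y, s y ^ (p + 1) with hA1
  have hint : Integrable
      (fun y => (U (A1 / A0) - k * (A1 / A0)) * s y ^ p + k * s y ^ (p + 1)) :=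
    (i0.const_mul _).add (i1.const_mul _)
  have hle : ∫ y, ((U (A1 / A0) - k * (A1 / A0)) * s y ^ p + k * s y ^ (p + 1))
      ≤ ∫ y, s y ^ p * U (s y) := by
    refine integral_mono hint i2 (fun y => ?_)
    have h1 := hk (s y)
    have h2 : 0 ≤ s y ^ p := pow_nonneg (hs y) p
    have h3 := mul_le_mul_of_nonneg_left h1 h2
    calc (U (A1 / A0) - k * (A1 / A0)) * s y ^ p + k * s y ^ (p + 1)
        = s y ^ p * (U (A1 / A0) + k * (s y - A1 / A0)) := by ring
      _ ≤ s y ^ p * U (s y) := h3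
  rw [integral_add (i0.const_mul _) (i1.const_mul _), integral_const_mul, integral_const_mul,
    ← hA0, ← hA1] at hle
  have : (U (A1 / A0) - k * (A1 / A0)) * A0 + k * A1 = A0 * U (A1 / A0) := by
    field_simp
    ring
  linarith

end Vale.Agent.Lib.P254.OSum
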