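import Vale.Agent.Lib.P254.OSum.FormulasT

/-! T3. Truncated version of `Block.lean` (ADAPT its proof; extra output `r ≤ A`:
`r = A1 / A0`, and `A1 = ∫ s^(p+1) ≤ A ∫ s^p` by `integral_mono` from `s^(p+1) = s^p * s ≤ A * s^p`). -/

namespace Vale.Agent.Lib.P254.OSum

open MeasureTheory Set Vale.Agent.Lib.P254 Vale.Agent.Lib.P254.Orl

theorem block_T {p q : ℕ} (hp : 0 < p) {K : Set (Fin p → ℝ)} (hK : IsConvexBody K)
    (sK : Solid K) {u : ℝ → ℝ} (hu : IsYoung u) {A : ℝ} (hA : 0 ≤ A) (c : (Fin q → ℝ) → ℝ)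
    (kS : IsCompact {z : (Fin p → ℝ) × (Fin q → ℝ) | gauge K z.1 ≤ A ∧ u (gauge K z.1) ≤ c z.2})
    (hV : 0 < (volume {z : (Fin p → ℝ) × (Fin q → ℝ) |
      gauge K z.1 ≤ A ∧ u (gauge K z.1) ≤ c z.2}).toReal) :
    ∃ r : ℝ, 0 ≤ r ∧ r ≤ A ∧
      (∀ i, ∫ z in {z : (Fin p → ℝ) × (Fin q → ℝ) | gauge K z.1 ≤ A ∧ u (gauge K z.1) ≤ c z.2},
          |z.1 i|
        = (volume {z : (Fin p → ℝ) × (Fin q → ℝ) |
            gauge K z.1 ≤ A ∧ u (gauge K z.1) ≤ c z.2}).toReal * r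
          * ((vol K)⁻¹ * ∫ x in K, |x i|)) ∧
      (volume {z : (Fin p → ℝ) × (Fin q → ℝ) |
          gauge K z.1 ≤ A ∧ u (gauge K z.1) ≤ c z.2}).toReal * meanU u K r
        ≤ ∫ z in {z : (Fin p → ℝ) × (Fin q → ℝ) | gauge K z.1 ≤ A ∧ u (gauge K z.1) ≤ c z.2},
          u (gauge K z.1) := by
  obtain ⟨s, hs, hsA, i0, i1, i2, hvol, habs, hU⟩ := block_formulas_T hp hK sK hu hA c kS
  have hvK : 0 < vol K := vol_pos hK
  have hA0pos : 0 < ∫ y, s y ^ p := by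
    rw [hvol] at hV
    exact (pos_iff_pos_of_mul_pos hV).mp hvK
  have hA1nn : 0 ≤ ∫ y, s y ^ (p + 1) := integral_nonneg (fun y => pow_nonneg (hs y) _)
  have hA1le : ∫ y, s y ^ (p + 1) ≤ A * ∫ y, s y ^ p := by
    rw [← integral_const_mul]
    apply integral_mono i1 (i0.const_mul A)
    intro y
    show s y ^ (p + 1) ≤ A * s y ^ p
    rw [pow_succ, mul_comm]
    exact mul_le_mul_of_nonneg_right (hsA y) (pow_nonneg (hs y) _)
  refine ⟨(∫ y, s y ^ (p + 1)) / ∫ y, s y ^ p, div_nonneg hA1nn hA0pos.le, ?_, ?_, ?_⟩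
  · rw [div_le_iff₀ hA0pos]
    exact hA1le
  · intro i
    rw [habs i, hvol]
    field_simp
  · rw [hvol, hU]
    have h1 := jensen_step s hs (meanU u K) (convexOn_meanU hK sK hu) i0 i1 i2 hA0pos
    calc vol K * (∫ y, s y ^ p) * meanU u K ((∫ y, s y ^ (p + 1)) / ∫ y, s y ^ p)
        = vol K * ((∫ y, s y ^ p) * meanU u K ((∫ y, s y ^ (p + 1)) / ∫ y, s y ^ p)) := by ring
      _ ≤ vol K * ∫ y, s y ^ p * meanU u K (s y) := mul_le_mul_of_nonneg_left h1 hvK.le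

end Vale.Agent.Lib.P254.OSum
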