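import Vale.Agent.Lib.P254.OSum.Compact

/-! O14. The Orlicz sum is a solid convex body.
ROUTE `continuous_wS`: `fstB`, `sndB` are continuous (`continuous_pi`, `continuous_apply`), `continuous_gaugeK`,
`IsYoung.continuous`.
ROUTE `convex_OrlSum`: `x ↦ u (gauge K (fstB x))` is convex: `gauge K (fstB (a x + b y)) ≤ a gauge + b gauge`
(`convexOn_gauge`, `fstB` is linear: `funext`), then `IsYoung.mono` (both sides `≥ 0`) and `hu.conv.2`.
ROUTE interior: `wS` is continuous and `wS 0 = 1 > 0` (`gauge_zero`, `hu.zero`), so `{x | 0 < wS x}` is an open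
subset of the Orlicz sum containing `0` (`interior_maximal`).
ROUTE `solid_OrlSum`: `gauge_mono_solid` on both blocks, `IsYoung.mono` (`abs_of_nonneg (gauge_nonneg _)`). -/

namespace Vale.Agent.Lib.P254.OSum

open MeasureTheory Set Vale.Agent.Lib.P254 Vale.Agent.Lib.P254.Orl

/-- `w = 1 - u₁(‖x‖_{K₁}) - u₂(‖y‖_{K₂})` -/
noncomputable def wS {p q : ℕ} (u₁ u₂ : ℝ → ℝ) (K₁ : Set (Fin p → ℝ)) (K₂ : Set (Fin q → ℝ))
    (x : Fin (p + q) → ℝ) : ℝ :=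
  1 - u₁ (gauge K₁ (fstB x)) - u₂ (gauge K₂ (sndB x))

variable {p q : ℕ} {K₁ : Set (Fin p → ℝ)} {K₂ : Set (Fin q → ℝ)} {u₁ u₂ : ℝ → ℝ}

theorem OrlSum_eq_wS : OrlSum u₁ u₂ K₁ K₂ = {x | 0 ≤ wS u₁ u₂ K₁ K₂ x} := by
  ext x
  simp only [OrlSum, wS, mem_ofPred_eq]
  constructor <;> intro h <;> linarith

theorem continuous_uF (hK₁ : IsConvexBody K₁) (sK₁ : Solid K₁) (hu₁ : IsYoung u₁) :
    Continuous (fun x : Fin (p + q) → ℝ => u₁ (gauge K₁ (fstB x))) := by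
  have h : Continuous (fstB : (Fin (p + q) → ℝ) → (Fin p → ℝ)) :=
    continuous_pi fun i => continuous_apply _
  exact hu₁.continuous.comp ((continuous_gaugeK hK₁ sK₁).comp h)

theorem continuous_uS (hK₂ : IsConvexBody K₂) (sK₂ : Solid K₂) (hu₂ : IsYoung u₂) :
    Continuous (fun x : Fin (p + q) → ℝ => u₂ (gauge K₂ (sndB x))) := by
  have h : Continuous (sndB : (Fin (p + q) → ℝ) → (Fin q → ℝ)) :=
    continuous_pi fun i => continuous_apply _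
  exact hu₂.continuous.comp ((continuous_gaugeK hK₂ sK₂).comp h)

theorem continuous_wS (hK₁ : IsConvexBody K₁) (sK₁ : Solid K₁) (hK₂ : IsConvexBody K₂)
    (sK₂ : Solid K₂) (hu₁ : IsYoung u₁) (hu₂ : IsYoung u₂) : Continuous (wS u₁ u₂ K₁ K₂) :=
  (continuous_const.sub (continuous_uF hK₁ sK₁ hu₁)).sub (continuous_uS hK₂ sK₂ hu₂)

private theorem young_gauge_conv {m : ℕ} {K : Set (Fin m → ℝ)} {u : ℝ → ℝ}
    (hK : IsConvexBody K) (sK : Solid K) (hu : IsYoung u) (x y : Fin m → ℝ) {a b : ℝ}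
    (ha : 0 ≤ a) (hb : 0 ≤ b) (hab : a + b = 1) :
    u (gauge K (a • x + b • y)) ≤ a * u (gauge K x) + b * u (gauge K y) := by
  have h1 : gauge K (a • x + b • y) ≤ a * gauge K x + b * gauge K y := by
    have := (convexOn_gauge hK sK).2 (mem_univ x) (mem_univ y) ha hb hab
    simpa only [smul_eq_mul] using this
  have h2 : u (gauge K (a • x + b • y)) ≤ u (a * gauge K x + b * gauge K y) := by
    refine hu.mono ?_
    rw [abs_of_nonneg (gauge_nonneg _),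
      abs_of_nonneg (add_nonneg (mul_nonneg ha (gauge_nonneg _)) (mul_nonneg hb (gauge_nonneg _)))]
    exact h1
  have h3 := hu.conv.2 (mem_univ (gauge K x)) (mem_univ (gauge K y)) ha hb hab
  simp only [smul_eq_mul] at h3
  exact h2.trans h3

theorem convex_OrlSum (hK₁ : IsConvexBody K₁) (sK₁ : Solid K₁) (hK₂ : IsConvexBody K₂)
    (sK₂ : Solid K₂) (hu₁ : IsYoung u₁) (hu₂ : IsYoung u₂) : Convex ℝ (OrlSum u₁ u₂ K₁ K₂) := by
  intro x hx y hy a b ha hb hab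
  have hx' : u₁ (gauge K₁ (fstB x)) + u₂ (gauge K₂ (sndB x)) ≤ 1 := hx
  have hy' : u₁ (gauge K₁ (fstB y)) + u₂ (gauge K₂ (sndB y)) ≤ 1 := hy
  show u₁ (gauge K₁ (fstB (a • x + b • y))) + u₂ (gauge K₂ (sndB (a • x + b • y))) ≤ 1
  have e1 : fstB (a • x + b • y) = a • fstB x + b • fstB y := by
    funext i; rfl
  have e2 : sndB (a • x + b • y) = a • sndB x + b • sndB y := by
    funext i; rfl
  rw [e1, e2]
  have h1 := young_gauge_conv hK₁ sK₁ hu₁ (fstB x) (fstB y) ha hb hab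
  have h2 := young_gauge_conv hK₂ sK₂ hu₂ (sndB x) (sndB y) ha hb hab
  nlinarith

theorem wS_zero (hu₁ : IsYoung u₁) (hu₂ : IsYoung u₂) : wS u₁ u₂ K₁ K₂ 0 = 1 := by
  have e1 : fstB (0 : Fin (p + q) → ℝ) = 0 := by funext i; rfl
  have e2 : sndB (0 : Fin (p + q) → ℝ) = 0 := by funext i; rfl
  simp only [wS, e1, e2, gauge_zero, hu₁.zero, hu₂.zero, sub_zero]

theorem isConvexBody_OrlSum (hK₁ : IsConvexBody K₁) (sK₁ : Solid K₁) (hK₂ : IsConvexBody K₂)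
    (sK₂ : Solid K₂) (hu₁ : IsYoung u₁) (hu₂ : IsYoung u₂) :
    IsConvexBody (OrlSum u₁ u₂ K₁ K₂) := by
  refine ⟨isCompact_OrlSum hK₁ sK₁ hK₂ sK₂ hu₁ hu₂, convex_OrlSum hK₁ sK₁ hK₂ sK₂ hu₁ hu₂, 0, ?_⟩
  have hopen : IsOpen {x | 0 < wS u₁ u₂ K₁ K₂ x} :=
    isOpen_lt continuous_const (continuous_wS hK₁ sK₁ hK₂ sK₂ hu₁ hu₂)
  have hsub : {x | 0 < wS u₁ u₂ K₁ K₂ x} ⊆ OrlSum u₁ u₂ K₁ K₂ := by
    rw [OrlSum_eq_wS]
    intro x hx
    have hx' : 0 < wS u₁ u₂ K₁ K₂ x := hx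
    exact le_of_lt hx'
  refine interior_maximal hsub hopen ?_
  show 0 < wS u₁ u₂ K₁ K₂ 0
  rw [wS_zero hu₁ hu₂]
  exact one_pos

theorem solid_OrlSum (hK₁ : IsConvexBody K₁) (sK₁ : Solid K₁) (hK₂ : IsConvexBody K₂)
    (sK₂ : Solid K₂) (hu₁ : IsYoung u₁) (hu₂ : IsYoung u₂) : Solid (OrlSum u₁ u₂ K₁ K₂) := by
  intro x hx y hxy
  have hx' : u₁ (gauge K₁ (fstB x)) + u₂ (gauge K₂ (sndB x)) ≤ 1 := hx
  show u₁ (gauge K₁ (fstB y)) + u₂ (gauge K₂ (sndB y)) ≤ 1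
  have g1 : gauge K₁ (fstB y) ≤ gauge K₁ (fstB x) :=
    gauge_mono_solid hK₁ sK₁ fun j => hxy _
  have g2 : gauge K₂ (sndB y) ≤ gauge K₂ (sndB x) :=
    gauge_mono_solid hK₂ sK₂ fun j => hxy _
  have h1 : u₁ (gauge K₁ (fstB y)) ≤ u₁ (gauge K₁ (fstB x)) := by
    refine hu₁.mono ?_
    rw [abs_of_nonneg (gauge_nonneg _), abs_of_nonneg (gauge_nonneg _)]
    exact g1
  have h2 : u₂ (gauge K₂ (sndB y)) ≤ u₂ (gauge K₂ (sndB x)) := by
    refine hu₂.mono ?_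
    rw [abs_of_nonneg (gauge_nonneg _), abs_of_nonneg (gauge_nonneg _)]
    exact g2
  linarith

end Vale.Agent.Lib.P254.OSum
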