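import Vale.Agent.Lib.P254.OSum.Split

/-! O12. Transfer of integrals and volumes through the split.
ROUTE: `MeasurePreserving.setIntegral_preimage_emb (split_mp_me p q).1 (split_mp_me p q).2 G S` (the set
`{x | (fstB x, sndB x) ∈ S}` is the preimage, by `rfl`), `MeasurePreserving.measure_preimage_emb`. -/

namespace Vale.Agent.Lib.P254.OSum

open MeasureTheory Set Vale.Agent.Lib.P254 Vale.Agent.Lib.P254.Orl

theorem setIntegral_split {p q : ℕ} (S : Set ((Fin p → ℝ) × (Fin q → ℝ)))
    (G : (Fin p → ℝ) × (Fin q → ℝ) → ℝ) :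
    ∫ x in {x : Fin (p + q) → ℝ | (fstB x, sndB x) ∈ S}, G (fstB x, sndB x) = ∫ z in S, G z := by
  exact MeasurePreserving.setIntegral_preimage_emb (split_mp_me p q).1 (split_mp_me p q).2 G S

theorem vol_split {p q : ℕ} (S : Set ((Fin p → ℝ) × (Fin q → ℝ))) :
    vol {x : Fin (p + q) → ℝ | (fstB x, sndB x) ∈ S} = (volume S).toReal := by
  unfold vol
  exact congrArg ENNReal.toReal
    (MeasurePreserving.measure_preimage_emb (split_mp_me p q).1 (split_mp_me p q).2 S)

theorem setIntegral_split' {p q : ℕ} (S : Set ((Fin q → ℝ) × (Fin p → ℝ)))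
    (G : (Fin q → ℝ) × (Fin p → ℝ) → ℝ) :
    ∫ x in {x : Fin (p + q) → ℝ | (sndB x, fstB x) ∈ S}, G (sndB x, fstB x) = ∫ z in S, G z := by
  exact MeasurePreserving.setIntegral_preimage_emb (split_mp_me' p q).1 (split_mp_me' p q).2 G S

theorem vol_split' {p q : ℕ} (S : Set ((Fin q → ℝ) × (Fin p → ℝ))) :
    vol {x : Fin (p + q) → ℝ | (sndB x, fstB x) ∈ S} = (volume S).toReal := by
  unfold vol
  exact congrArg ENNReal.toReal
    (MeasurePreserving.measure_preimage_emb (split_mp_me' p q).1 (split_mp_me' p q).2 S)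

end Vale.Agent.Lib.P254.OSum
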