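import Vale.Agent.Lib.P254.OSum.Block
import Vale.Agent.Lib.P254.OSum.Body
import Vale.Agent.Lib.P254.OSum.Transfer

/-! O17. The block lemma transferred to `ℝ^(p+q)`, for both blocks.
ROUTE `block_fst`: `S = {z | u₁ (gauge K₁ z.1) ≤ 1 - u₂ (gauge K₂ z.2)}` is compact (`isCompact_PSet`);
`OrlSum u₁ u₂ K₁ K₂ = {x | (fstB x, sndB x) ∈ S}` (`ext`, `linarith`).  So `vol (OrlSum ..) = (volume S).toReal`
(`vol_split`), positive by `vol_pos (isConvexBody_OrlSum ..)`; apply `block hp hK₁ sK₁ hu₁ (fun y => 1 - u₂ (gauge K₂ y))`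
and rewrite the integrals by `setIntegral_split S (fun z => |z.1 i|)` (`fstB x i = x (Fin.castAdd q i)` is `rfl`)
and `setIntegral_split S (fun z => u₁ (gauge K₁ z.1))`.
ROUTE `block_snd`: the same with `S' = {z : ℝ^q × ℝ^p | u₂ (gauge K₂ z.1) ≤ 1 - u₁ (gauge K₁ z.2)}`
(`isCompact_PSet hK₂ sK₂ hK₁ sK₁ hu₂ hu₁`), `vol_split'`, `setIntegral_split'`, `block hq hK₂ sK₂ hu₂ _`. -/

namespace Vale.Agent.Lib.P254.OSum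

open MeasureTheory Set Vale.Agent.Lib.P254 Vale.Agent.Lib.P254.Orl

variable {p q : ℕ} {K₁ : Set (Fin p → ℝ)} {K₂ : Set (Fin q → ℝ)} {u₁ u₂ : ℝ → ℝ}

theorem block_fst (hp : 0 < p) (hK₁ : IsConvexBody K₁) (sK₁ : Solid K₁) (hK₂ : IsConvexBody K₂)
    (sK₂ : Solid K₂) (hu₁ : IsYoung u₁) (hu₂ : IsYoung u₂) :
    ∃ r : ℝ, 0 ≤ r ∧
      (∀ i : Fin p, ∫ x in OrlSum u₁ u₂ K₁ K₂, |x (Fin.castAdd q i)|
        = vol (OrlSum u₁ u₂ K₁ K₂) * r * ((vol K₁)⁻¹ * ∫ a in K₁, |a i|)) ∧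
      vol (OrlSum u₁ u₂ K₁ K₂) * meanU u₁ K₁ r
        ≤ ∫ x in OrlSum u₁ u₂ K₁ K₂, u₁ (gauge K₁ (fstB x)) := by
  have kS := isCompact_PSet hK₁ sK₁ hK₂ sK₂ hu₁ hu₂
  have hset : OrlSum u₁ u₂ K₁ K₂ = {x : Fin (p + q) → ℝ | (fstB x, sndB x) ∈
      {z : (Fin p → ℝ) × (Fin q → ℝ) | u₁ (gauge K₁ z.1) ≤ 1 - u₂ (gauge K₂ z.2)}} := by
    ext x
    simp only [OrlSum, mem_ofPred_eq]
    constructor <;> intro h <;> linarith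
  have hvol : vol (OrlSum u₁ u₂ K₁ K₂) = (volume
      {z : (Fin p → ℝ) × (Fin q → ℝ) | u₁ (gauge K₁ z.1) ≤ 1 - u₂ (gauge K₂ z.2)}).toReal := by
    rw [hset]; exact vol_split _
  have hV : 0 < (volume
      {z : (Fin p → ℝ) × (Fin q → ℝ) | u₁ (gauge K₁ z.1) ≤ 1 - u₂ (gauge K₂ z.2)}).toReal := by
    rw [← hvol]; exact vol_pos (isConvexBody_OrlSum hK₁ sK₁ hK₂ sK₂ hu₁ hu₂)
  obtain ⟨r, hr, h1, h2⟩ := block hp hK₁ sK₁ hu₁ (fun y => 1 - u₂ (gauge K₂ y)) kS hV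
  refine ⟨r, hr, ?_, ?_⟩
  · intro i
    rw [hvol, ← h1 i, hset]
    exact setIntegral_split _ (fun z => |z.1 i|)
  · rw [hvol]
    refine le_trans h2 (le_of_eq ?_)
    rw [hset]
    exact (setIntegral_split _ (fun z => u₁ (gauge K₁ z.1))).symm

theorem block_snd (hq : 0 < q) (hK₁ : IsConvexBody K₁) (sK₁ : Solid K₁) (hK₂ : IsConvexBody K₂)
    (sK₂ : Solid K₂) (hu₁ : IsYoung u₁) (hu₂ : IsYoung u₂) :
    ∃ r : ℝ, 0 ≤ r ∧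
      (∀ j : Fin q, ∫ x in OrlSum u₁ u₂ K₁ K₂, |x (Fin.natAdd p j)|
        = vol (OrlSum u₁ u₂ K₁ K₂) * r * ((vol K₂)⁻¹ * ∫ b in K₂, |b j|)) ∧
      vol (OrlSum u₁ u₂ K₁ K₂) * meanU u₂ K₂ r
        ≤ ∫ x in OrlSum u₁ u₂ K₁ K₂, u₂ (gauge K₂ (sndB x)) := by
  have kS := isCompact_PSet hK₂ sK₂ hK₁ sK₁ hu₂ hu₁
  have hset : OrlSum u₁ u₂ K₁ K₂ = {x : Fin (p + q) → ℝ | (sndB x, fstB x) ∈
      {z : (Fin q → ℝ) × (Fin p → ℝ) | u₂ (gauge K₂ z.1) ≤ 1 - u₁ (gauge K₁ z.2)}} := by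
    ext x
    simp only [OrlSum, mem_ofPred_eq]
    constructor <;> intro h <;> linarith
  have hvol : vol (OrlSum u₁ u₂ K₁ K₂) = (volume
      {z : (Fin q → ℝ) × (Fin p → ℝ) | u₂ (gauge K₂ z.1) ≤ 1 - u₁ (gauge K₁ z.2)}).toReal := by
    rw [hset]; exact vol_split' _
  have hV : 0 < (volume
      {z : (Fin q → ℝ) × (Fin p → ℝ) | u₂ (gauge K₂ z.1) ≤ 1 - u₁ (gauge K₁ z.2)}).toReal := by
    rw [← hvol]; exact vol_pos (isConvexBody_OrlSum hK₁ sK₁ hK₂ sK₂ hu₁ hu₂)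
  obtain ⟨r, hr, h1, h2⟩ := block hq hK₂ sK₂ hu₂ (fun y => 1 - u₁ (gauge K₁ y)) kS hV
  refine ⟨r, hr, ?_, ?_⟩
  · intro j
    rw [hvol, ← h1 j, hset]
    exact setIntegral_split' _ (fun z => |z.1 j|)
  · rw [hvol]
    refine le_trans h2 (le_of_eq ?_)
    rw [hset]
    exact (setIntegral_split' _ (fun z => u₂ (gauge K₂ z.1))).symm

end Vale.Agent.Lib.P254.OSum
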