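import Vale.Agent.Lib.P254.OSum.DefsT

/-! T4. The truncated Orlicz sum is a solid convex body; compactness of the product-space sets.
ROUTE: `TSum = OrlSum ∩ {x | gauge K₁ (fstB x) ≤ A₁} ∩ {x | gauge K₂ (sndB x) ≤ A₂}` (`TSum_eq_inter`, by `ext`).
Compact: `isCompact_OrlSum` inter closed sets (`IsCompact.inter_right`, `isClosed_le`, `continuous_gaugeK`,
continuity of `fstB`, `sndB` as in `Body.lean`).  Convex: `convex_OrlSum` inter sublevel sets of the convex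
functions `gauge K ∘ fstB` (`convexOn_gauge`, linearity of `fstB`; or `gauge_add_le`, `gauge_smul_of_nonneg`).
Interior: `{x | 0 < wS x} ∩ {gauge K₁ (fstB x) < A₁} ∩ {gauge K₂ (sndB x) < A₂}` is open, contains `0`
(`wS_zero`, `gauge_zero`), and is contained in `TSum`.  Solid: `solid_OrlSum` + `gauge_mono_solid`.
`isCompact_PSet_T`: the set equals `PSet ∩ {gauge K₁ z.1 ≤ A₁} ∩ {gauge K₂ z.2 ≤ A₂}` (unfold `cT`, `split_ifs`;
in the `else` branch `u₁ _ ≤ -1` contradicts `IsYoung.nonneg`), `isCompact_PSet` inter closed sets. -/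

namespace Vale.Agent.Lib.P254.OSum

open MeasureTheory Set Vale.Agent.Lib.P254 Vale.Agent.Lib.P254.Orl

variable {p q : ℕ} {K₁ : Set (Fin p → ℝ)} {K₂ : Set (Fin q → ℝ)} {u₁ u₂ : ℝ → ℝ} {A₁ A₂ : ℝ}

theorem TSum_eq_inter : TSum u₁ u₂ A₁ A₂ K₁ K₂
    = OrlSum u₁ u₂ K₁ K₂ ∩ {x | gauge K₁ (fstB x) ≤ A₁ ∧ gauge K₂ (sndB x) ≤ A₂} := by
  ext x
  simp only [TSum, OrlSum, mem_ofPred_eq, mem_inter_iff]
  constructor
  · rintro ⟨h1, h2, h3⟩
    exact ⟨h3, h1, h2⟩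
  · rintro ⟨h3, h1, h2⟩
    exact ⟨h1, h2, h3⟩

theorem isCompact_TSum (hK₁ : IsConvexBody K₁) (sK₁ : Solid K₁) (hK₂ : IsConvexBody K₂)
    (sK₂ : Solid K₂) (hu₁ : IsYoung u₁) (hu₂ : IsYoung u₂) :
    IsCompact (TSum u₁ u₂ A₁ A₂ K₁ K₂) := by
  rw [TSum_eq_inter]
  refine (isCompact_OrlSum hK₁ sK₁ hK₂ sK₂ hu₁ hu₂).inter_right ?_
  have hf : Continuous (fstB : (Fin (p + q) → ℝ) → (Fin p → ℝ)) :=
    continuous_pi fun i => continuous_apply _
  have hs : Continuous (sndB : (Fin (p + q) → ℝ) → (Fin q → ℝ)) :=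
    continuous_pi fun i => continuous_apply _
  exact (isClosed_le ((continuous_gaugeK hK₁ sK₁).comp hf) continuous_const).inter
    (isClosed_le ((continuous_gaugeK hK₂ sK₂).comp hs) continuous_const)

theorem isConvexBody_TSum (hK₁ : IsConvexBody K₁) (sK₁ : Solid K₁) (hK₂ : IsConvexBody K₂)
    (sK₂ : Solid K₂) (hu₁ : IsYoung u₁) (hu₂ : IsYoung u₂) (hA₁ : 0 < A₁) (hA₂ : 0 < A₂) :
    IsConvexBody (TSum u₁ u₂ A₁ A₂ K₁ K₂) := by
  have hf : Continuous (fstB : (Fin (p + q) → ℝ) → (Fin p → ℝ)) :=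
    continuous_pi fun i => continuous_apply _
  have hs : Continuous (sndB : (Fin (p + q) → ℝ) → (Fin q → ℝ)) :=
    continuous_pi fun i => continuous_apply _
  refine ⟨isCompact_TSum hK₁ sK₁ hK₂ sK₂ hu₁ hu₂, ?_, 0, ?_⟩
  · rw [TSum_eq_inter]
    refine (convex_OrlSum hK₁ sK₁ hK₂ sK₂ hu₁ hu₂).inter ?_
    intro x hx y hy a b ha hb hab
    have hx1 : gauge K₁ (fstB x) ≤ A₁ := hx.1
    have hx2 : gauge K₂ (sndB x) ≤ A₂ := hx.2
    have hy1 : gauge K₁ (fstB y) ≤ A₁ := hy.1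
    have hy2 : gauge K₂ (sndB y) ≤ A₂ := hy.2
    have e1 : fstB (a • x + b • y) = a • fstB x + b • fstB y := by
      funext i; rfl
    have e2 : sndB (a • x + b • y) = a • sndB x + b • sndB y := by
      funext i; rfl
    have g1 : gauge K₁ (a • fstB x + b • fstB y) ≤ a * gauge K₁ (fstB x) + b * gauge K₁ (fstB y) := by
      have := (convexOn_gauge hK₁ sK₁).2 (mem_univ (fstB x)) (mem_univ (fstB y)) ha hb hab
      simpa only [smul_eq_mul] using this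
    have g2 : gauge K₂ (a • sndB x + b • sndB y) ≤ a * gauge K₂ (sndB x) + b * gauge K₂ (sndB y) := by
      have := (convexOn_gauge hK₂ sK₂).2 (mem_univ (sndB x)) (mem_univ (sndB y)) ha hb hab
      simpa only [smul_eq_mul] using this
    show gauge K₁ (fstB (a • x + b • y)) ≤ A₁ ∧ gauge K₂ (sndB (a • x + b • y)) ≤ A₂
    rw [e1, e2]
    constructor
    · have h1 := mul_le_mul_of_nonneg_left hx1 ha
      have h2 := mul_le_mul_of_nonneg_left hy1 hb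
      have h3 : a * A₁ + b * A₁ = A₁ := by rw [← add_mul, hab, one_mul]
      linarith
    · have h1 := mul_le_mul_of_nonneg_left hx2 ha
      have h2 := mul_le_mul_of_nonneg_left hy2 hb
      have h3 : a * A₂ + b * A₂ = A₂ := by rw [← add_mul, hab, one_mul]
      linarith
  · have hopen : IsOpen ({x | 0 < wS u₁ u₂ K₁ K₂ x} ∩
        ({x | gauge K₁ (fstB x) < A₁} ∩ {x | gauge K₂ (sndB x) < A₂})) :=
      (isOpen_lt continuous_const (continuous_wS hK₁ sK₁ hK₂ sK₂ hu₁ hu₂)).inter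
        ((isOpen_lt ((continuous_gaugeK hK₁ sK₁).comp hf) continuous_const).inter
          (isOpen_lt ((continuous_gaugeK hK₂ sK₂).comp hs) continuous_const))
    have hsub : ({x | 0 < wS u₁ u₂ K₁ K₂ x} ∩
        ({x | gauge K₁ (fstB x) < A₁} ∩ {x | gauge K₂ (sndB x) < A₂})) ⊆ TSum u₁ u₂ A₁ A₂ K₁ K₂ := by
      rintro x ⟨h0, h1, h2⟩
      have h0' : 0 < 1 - u₁ (gauge K₁ (fstB x)) - u₂ (gauge K₂ (sndB x)) := h0
      have h1' : gauge K₁ (fstB x) < A₁ := h1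
      have h2' : gauge K₂ (sndB x) < A₂ := h2
      exact ⟨h1'.le, h2'.le, by linarith⟩
    refine interior_maximal hsub hopen ⟨?_, ?_, ?_⟩
    · show 0 < wS u₁ u₂ K₁ K₂ 0
      rw [wS_zero hu₁ hu₂]
      exact one_pos
    · have e1 : fstB (0 : Fin (p + q) → ℝ) = 0 := by funext i; rfl
      show gauge K₁ (fstB (0 : Fin (p + q) → ℝ)) < A₁
      rw [e1, gauge_zero]
      exact hA₁
    · have e2 : sndB (0 : Fin (p + q) → ℝ) = 0 := by funext i; rfl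
      show gauge K₂ (sndB (0 : Fin (p + q) → ℝ)) < A₂
      rw [e2, gauge_zero]
      exact hA₂

theorem solid_TSum (hK₁ : IsConvexBody K₁) (sK₁ : Solid K₁) (hK₂ : IsConvexBody K₂)
    (sK₂ : Solid K₂) (hu₁ : IsYoung u₁) (hu₂ : IsYoung u₂) :
    Solid (TSum u₁ u₂ A₁ A₂ K₁ K₂) := by
  intro x hx y hxy
  obtain ⟨h1, h2, h3⟩ := hx
  have g1 : gauge K₁ (fstB y) ≤ gauge K₁ (fstB x) :=
    gauge_mono_solid hK₁ sK₁ fun j => hxy _
  have g2 : gauge K₂ (sndB y) ≤ gauge K₂ (sndB x) :=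
    gauge_mono_solid hK₂ sK₂ fun j => hxy _
  have h4 : y ∈ OrlSum u₁ u₂ K₁ K₂ := solid_OrlSum hK₁ sK₁ hK₂ sK₂ hu₁ hu₂ x h3 y hxy
  exact ⟨g1.trans h1, g2.trans h2, h4⟩

theorem isCompact_PSet_T (hK₁ : IsConvexBody K₁) (sK₁ : Solid K₁) (hK₂ : IsConvexBody K₂)
    (sK₂ : Solid K₂) (hu₁ : IsYoung u₁) (hu₂ : IsYoung u₂) :
    IsCompact {z : (Fin p → ℝ) × (Fin q → ℝ) |
      gauge K₁ z.1 ≤ A₁ ∧ u₁ (gauge K₁ z.1) ≤ cT u₂ A₂ K₂ z.2} := by
  have heq : {z : (Fin p → ℝ) × (Fin q → ℝ) |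
      gauge K₁ z.1 ≤ A₁ ∧ u₁ (gauge K₁ z.1) ≤ cT u₂ A₂ K₂ z.2}
      = {z : (Fin p → ℝ) × (Fin q → ℝ) | u₁ (gauge K₁ z.1) ≤ 1 - u₂ (gauge K₂ z.2)} ∩
        ({z | gauge K₁ z.1 ≤ A₁} ∩ {z | gauge K₂ z.2 ≤ A₂}) := by
    ext z
    simp only [mem_ofPred_eq, mem_inter_iff, cT]
    constructor
    · rintro ⟨h1, h2⟩
      split_ifs at h2 with h
      · exact ⟨h2, h1, h⟩
      · have := hu₁.nonneg (gauge K₁ z.1)
        linarith
    · rintro ⟨h2, h1, h⟩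
      rw [if_pos h]
      exact ⟨h1, h2⟩
  rw [heq]
  refine (isCompact_PSet hK₁ sK₁ hK₂ sK₂ hu₁ hu₂).inter_right ?_
  exact (isClosed_le ((continuous_gaugeK hK₁ sK₁).comp continuous_fst) continuous_const).inter
    (isClosed_le ((continuous_gaugeK hK₂ sK₂).comp continuous_snd) continuous_const)

end Vale.Agent.Lib.P254.OSum
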