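import Vale.Agent.Lib.P254.OSum.BlockG
import Vale.Agent.Lib.P254.OSum.BodyT

/-! T6. Truncated version of `BlockT.lean` (ADAPT its proof).
ROUTE `block_fst_T`: `S = {z | gauge K₁ z.1 ≤ A₁ ∧ u₁ (gauge K₁ z.1) ≤ cT u₂ A₂ K₂ z.2}` (compact:
`isCompact_PSet_T`), `TSum .. = {x | (fstB x, sndB x) ∈ S}` (`ext`; unfold `cT`, `split_ifs`; in the `else`
branch use `IsYoung.nonneg`), `vol_split`, `setIntegral_split`, `block_T hp hK₁ sK₁ hu₁ hA₁.le (cT u₂ A₂ K₂)`,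
positivity `vol_pos (isConvexBody_TSum ..)`.
`block_snd_T`: same with `S' = {z : ℝ^q × ℝ^p | gauge K₂ z.1 ≤ A₂ ∧ u₂ (gauge K₂ z.1) ≤ cT u₁ A₁ K₁ z.2}`,
`vol_split'`, `setIntegral_split'`. -/

namespace Vale.Agent.Lib.P254.OSum

open MeasureTheory Set Vale.Agent.Lib.P254 Vale.Agent.Lib.P254.Orl

variable {p q : ℕ} {K₁ : Set (Fin p → ℝ)} {K₂ : Set (Fin q → ℝ)} {u₁ u₂ : ℝ → ℝ} {A₁ A₂ : ℝ}

theorem block_fst_T (hp : 0 < p) (hK₁ : IsConvexBody K₁) (sK₁ : Solid K₁) (hK₂ : IsConvexBody K₂)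
    (sK₂ : Solid K₂) (hu₁ : IsYoung u₁) (hu₂ : IsYoung u₂) (hA₁ : 0 < A₁) (hA₂ : 0 < A₂) :
    ∃ r : ℝ, 0 ≤ r ∧ r ≤ A₁ ∧
      (∀ i : Fin p, ∫ x in TSum u₁ u₂ A₁ A₂ K₁ K₂, |x (Fin.castAdd q i)|
        = vol (TSum u₁ u₂ A₁ A₂ K₁ K₂) * r * ((vol K₁)⁻¹ * ∫ a in K₁, |a i|)) ∧
      vol (TSum u₁ u₂ A₁ A₂ K₁ K₂) * meanU u₁ K₁ r
        ≤ ∫ x in TSum u₁ u₂ A₁ A₂ K₁ K₂, u₁ (gauge K₁ (fstB x)) := by
  have kS := isCompact_PSet_T (A₁ := A₁) (A₂ := A₂) hK₁ sK₁ hK₂ sK₂ hu₁ hu₂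
  have hset : TSum u₁ u₂ A₁ A₂ K₁ K₂ = {x : Fin (p + q) → ℝ | (fstB x, sndB x) ∈
      {z : (Fin p → ℝ) × (Fin q → ℝ) |
        gauge K₁ z.1 ≤ A₁ ∧ u₁ (gauge K₁ z.1) ≤ cT u₂ A₂ K₂ z.2}} := by
    ext x
    simp only [TSum, mem_ofPred_eq, cT]
    constructor
    · rintro ⟨h1, h2, h3⟩
      rw [if_pos h2]
      exact ⟨h1, by linarith⟩
    · rintro ⟨h1, h2⟩
      split_ifs at h2 with h
      · exact ⟨h1, h, by linarith⟩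
      · have := hu₁.nonneg (gauge K₁ (fstB x))
        linarith
  have hvol : vol (TSum u₁ u₂ A₁ A₂ K₁ K₂) = (volume
      {z : (Fin p → ℝ) × (Fin q → ℝ) |
        gauge K₁ z.1 ≤ A₁ ∧ u₁ (gauge K₁ z.1) ≤ cT u₂ A₂ K₂ z.2}).toReal := by
    rw [hset]; exact vol_split _
  have hV : 0 < (volume
      {z : (Fin p → ℝ) × (Fin q → ℝ) |
        gauge K₁ z.1 ≤ A₁ ∧ u₁ (gauge K₁ z.1) ≤ cT u₂ A₂ K₂ z.2}).toReal := by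
    rw [← hvol]; exact vol_pos (isConvexBody_TSum hK₁ sK₁ hK₂ sK₂ hu₁ hu₂ hA₁ hA₂)
  obtain ⟨r, hr, hrA, h1, h2⟩ := block_T hp hK₁ sK₁ hu₁ hA₁.le (cT u₂ A₂ K₂) kS hV
  refine ⟨r, hr, hrA, ?_, ?_⟩
  · intro i
    rw [hvol, ← h1 i, hset]
    exact setIntegral_split _ (fun z => |z.1 i|)
  · rw [hvol]
    refine le_trans h2 (le_of_eq ?_)
    rw [hset]
    exact (setIntegral_split _ (fun z => u₁ (gauge K₁ z.1))).symm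

theorem block_snd_T (hq : 0 < q) (hK₁ : IsConvexBody K₁) (sK₁ : Solid K₁) (hK₂ : IsConvexBody K₂)
    (sK₂ : Solid K₂) (hu₁ : IsYoung u₁) (hu₂ : IsYoung u₂) (hA₁ : 0 < A₁) (hA₂ : 0 < A₂) :
    ∃ r : ℝ, 0 ≤ r ∧ r ≤ A₂ ∧
      (∀ j : Fin q, ∫ x in TSum u₁ u₂ A₁ A₂ K₁ K₂, |x (Fin.natAdd p j)|
        = vol (TSum u₁ u₂ A₁ A₂ K₁ K₂) * r * ((vol K₂)⁻¹ * ∫ b in K₂, |b j|)) ∧
      vol (TSum u₁ u₂ A₁ A₂ K₁ K₂) * meanU u₂ K₂ r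
        ≤ ∫ x in TSum u₁ u₂ A₁ A₂ K₁ K₂, u₂ (gauge K₂ (sndB x)) := by
  have kS := isCompact_PSet_T (A₁ := A₂) (A₂ := A₁) hK₂ sK₂ hK₁ sK₁ hu₂ hu₁
  have hset : TSum u₁ u₂ A₁ A₂ K₁ K₂ = {x : Fin (p + q) → ℝ | (sndB x, fstB x) ∈
      {z : (Fin q → ℝ) × (Fin p → ℝ) |
        gauge K₂ z.1 ≤ A₂ ∧ u₂ (gauge K₂ z.1) ≤ cT u₁ A₁ K₁ z.2}} := by
    ext x
    simp only [TSum, mem_ofPred_eq, cT]
    constructor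
    · rintro ⟨h1, h2, h3⟩
      rw [if_pos h1]
      exact ⟨h2, by linarith⟩
    · rintro ⟨h1, h2⟩
      split_ifs at h2 with h
      · exact ⟨h, h1, by linarith⟩
      · have := hu₂.nonneg (gauge K₂ (sndB x))
        linarith
  have hvol : vol (TSum u₁ u₂ A₁ A₂ K₁ K₂) = (volume
      {z : (Fin q → ℝ) × (Fin p → ℝ) |
        gauge K₂ z.1 ≤ A₂ ∧ u₂ (gauge K₂ z.1) ≤ cT u₁ A₁ K₁ z.2}).toReal := by
    rw [hset]; exact vol_split' _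
  have hV : 0 < (volume
      {z : (Fin q → ℝ) × (Fin p → ℝ) |
        gauge K₂ z.1 ≤ A₂ ∧ u₂ (gauge K₂ z.1) ≤ cT u₁ A₁ K₁ z.2}).toReal := by
    rw [← hvol]; exact vol_pos (isConvexBody_TSum hK₁ sK₁ hK₂ sK₂ hu₁ hu₂ hA₁ hA₂)
  obtain ⟨r, hr, hrA, h1, h2⟩ := block_T hq hK₂ sK₂ hu₂ hA₂.le (cT u₁ A₁ K₁) kS hV
  refine ⟨r, hr, hrA, ?_, ?_⟩
  · intro j
    rw [hvol, ← h1 j, hset]
    exact setIntegral_split' _ (fun z => |z.1 j|)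
  · rw [hvol]
    refine le_trans h2 (le_of_eq ?_)
    rw [hset]
    exact (setIntegral_split' _ (fun z => u₂ (gauge K₂ z.1))).symm

end Vale.Agent.Lib.P254.OSum
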