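import Vale.Agent.Lib.P254.OSum.Defs

/-! O11. The split `ℝ^(p+q) ≃ ℝ^p × ℝ^q` is measure preserving.
ROUTE: `e₁ = MeasurableEquiv.piCongrLeft (fun _ => ℝ) finSumFinEquiv` (from `Fin p ⊕ Fin q → ℝ` to
`Fin (p+q) → ℝ`; measure preserving by `volume_measurePreserving_piCongrLeft`), `e₂ =
MeasurableEquiv.sumPiEquivProdPi (fun _ => ℝ)` (`volume_measurePreserving_sumPiEquivProdPi`).
The map `x ↦ (fstB x, sndB x)` is the function of `e₁.symm.trans e₂` (check by `funext`/`Prod.ext`,
`finSumFinEquiv_apply_left/right`, `MeasurableEquiv.piCongrLeft`, `Equiv.piCongrLeft_symm_apply`...).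
So it is measure preserving and a measurable embedding (`MeasurableEquiv.measurableEmbedding`).
For the swapped map compose with `MeasurableEquiv.prodComm` (`Measure.measurePreserving_swap`).
`fstB_append`, `sndB_append`: `Fin.append_left`, `Fin.append_right`. `append_split`: `Fin.addCases`. -/

namespace Vale.Agent.Lib.P254.OSum

open MeasureTheory Set Vale.Agent.Lib.P254 Vale.Agent.Lib.P254.Orl

theorem fstB_append {p q : ℕ} (a : Fin p → ℝ) (b : Fin q → ℝ) : fstB (Fin.append a b) = a := by
  funext i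
  simp [fstB, Fin.append_left]

theorem sndB_append {p q : ℕ} (a : Fin p → ℝ) (b : Fin q → ℝ) : sndB (Fin.append a b) = b := by
  funext i
  simp [sndB, Fin.append_right]

theorem append_split {p q : ℕ} (x : Fin (p + q) → ℝ) : Fin.append (fstB x) (sndB x) = x := by
  funext i
  refine Fin.addCases (fun j => ?_) (fun j => ?_) i
  · simp [fstB, Fin.append_left]
  · simp [sndB, Fin.append_right]

private noncomputable def splitE (p q : ℕ) : (Fin (p + q) → ℝ) ≃ᵐ (Fin p → ℝ) × (Fin q → ℝ) :=
  (MeasurableEquiv.piCongrLeft (fun _ => ℝ) (finSumFinEquiv (m := p) (n := q))).symm.trans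
    (MeasurableEquiv.sumPiEquivProdPi (fun _ : Fin p ⊕ Fin q => ℝ))

private lemma splitE_eq (p q : ℕ) :
    (splitE p q : (Fin (p + q) → ℝ) → (Fin p → ℝ) × (Fin q → ℝ)) = fun x => (fstB x, sndB x) := by
  funext x
  apply Prod.ext
  · funext i
    simp [splitE, fstB, MeasurableEquiv.piCongrLeft, MeasurableEquiv.sumPiEquivProdPi,
      Equiv.piCongrLeft_symm_apply, Equiv.sumPiEquivProdPi]
  · funext i
    simp [splitE, sndB, MeasurableEquiv.piCongrLeft, MeasurableEquiv.sumPiEquivProdPi,
      Equiv.piCongrLeft_symm_apply, Equiv.sumPiEquivProdPi]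

private lemma splitE_mp (p q : ℕ) : MeasurePreserving (splitE p q) volume volume := by
  unfold splitE
  exact (volume_measurePreserving_sumPiEquivProdPi (fun _ : Fin p ⊕ Fin q => ℝ)).comp
    ((volume_measurePreserving_piCongrLeft (fun _ => ℝ) (finSumFinEquiv (m := p) (n := q))).symm _)

theorem split_mp_me (p q : ℕ) :
    MeasurePreserving (fun x : Fin (p + q) → ℝ => ((fstB x, sndB x) : (Fin p → ℝ) × (Fin q → ℝ)))
      volume volume ∧
    MeasurableEmbedding (fun x : Fin (p + q) → ℝ => ((fstB x, sndB x) : (Fin p → ℝ) × (Fin q → ℝ))) := by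
  rw [← splitE_eq]
  exact ⟨splitE_mp p q, (splitE p q).measurableEmbedding⟩

theorem split_mp_me' (p q : ℕ) :
    MeasurePreserving (fun x : Fin (p + q) → ℝ => ((sndB x, fstB x) : (Fin q → ℝ) × (Fin p → ℝ)))
      volume volume ∧
    MeasurableEmbedding (fun x : Fin (p + q) → ℝ => ((sndB x, fstB x) : (Fin q → ℝ) × (Fin p → ℝ))) := by
  have h : (fun x : Fin (p + q) → ℝ => ((sndB x, fstB x) : (Fin q → ℝ) × (Fin p → ℝ)))
      = ((splitE p q).trans MeasurableEquiv.prodComm : (Fin (p + q) → ℝ) → (Fin q → ℝ) × (Fin p → ℝ)) := by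
    funext x
    have := congrFun (splitE_eq p q) x
    simp only [MeasurableEquiv.trans_apply, this]
    rfl
  rw [h]
  refine ⟨?_, ((splitE p q).trans MeasurableEquiv.prodComm).measurableEmbedding⟩
  exact (Measure.measurePreserving_swap (μ := (volume : Measure (Fin p → ℝ)))
    (ν := (volume : Measure (Fin q → ℝ)))).comp (splitE_mp p q)

end Vale.Agent.Lib.P254.OSum
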