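import Vale.Agent.Lib.P254.OSum.Defs

/-! O3. Young functions: level sets, growth, supporting lines.
Available: `IsYoung.continuous`, `IsYoung.nonneg`, `IsYoung.mono : |a| ≤ |b| → u a ≤ u b`.
ROUTE `young_growth`: `u c > 1` with wlog `c > 0` (evenness, `u 0 = 0`); convexity and `u 0 = 0` give
`u (k c) ≥ k u c ≥ k` for `k ≥ 1`; then `mono`.
ROUTE `young_level`: `σ c = sSup {t | 0 ≤ t ∧ u t ≤ c}`; the set is nonempty (`0`), bounded above
(`young_growth`), closed (continuity), and an initial segment of `[0,∞)` (`mono`). -/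

namespace Vale.Agent.Lib.P254.OSum

open MeasureTheory Set Vale.Agent.Lib.P254 Vale.Agent.Lib.P254.Orl

theorem young_growth {u : ℝ → ℝ} (hu : IsYoung u) (M : ℝ) :
    ∃ T : ℝ, 0 < T ∧ ∀ t : ℝ, T ≤ |t| → M < u t := by
  obtain ⟨c, hc⟩ := hu.big
  have hc0 : c ≠ 0 := by
    rintro rfl
    rw [hu.zero] at hc
    linarith
  have ha : 0 < |c| := abs_pos.mpr hc0
  set k : ℝ := |M| + 1 with hk
  have hk1 : 1 ≤ k := by have := abs_nonneg M; linarith
  have hk0 : 0 < k := by linarith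
  refine ⟨k * |c|, by positivity, fun t ht => ?_⟩
  have h1 : u (k * |c|) ≤ u t := hu.mono (by rw [abs_mul, abs_abs, abs_of_pos hk0]; exact ht)
  have h2 : u c ≤ u |c| := hu.mono (by rw [abs_abs])
  have h3 := hu.conv.2 (mem_univ (k * |c|)) (mem_univ (0:ℝ)) (by positivity : (0:ℝ) ≤ 1 / k)
    (by rw [sub_nonneg, div_le_one hk0]; exact hk1 : (0:ℝ) ≤ 1 - 1 / k) (by ring)
  simp only [smul_eq_mul, hu.zero, mul_zero, add_zero] at h3
  have e : 1 / k * (k * |c|) = |c| := by field_simp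
  rw [e] at h3
  have h4 : k * u |c| ≤ u (k * |c|) := by
    have := mul_le_mul_of_nonneg_left h3 hk0.le
    rwa [← mul_assoc, mul_one_div_cancel hk0.ne', one_mul] at this
  have h5 : k < k * u |c| := by
    have : 1 < u |c| := lt_of_lt_of_le hc h2
    nlinarith
  have : M ≤ |M| := le_abs_self M
  linarith

theorem young_level {u : ℝ → ℝ} (hu : IsYoung u) :
    ∃ σ : ℝ → ℝ, (∀ c, 0 ≤ σ c) ∧ ∀ c, 0 ≤ c → ∀ t, 0 ≤ t → (u t ≤ c ↔ t ≤ σ c) := by
  refine ⟨fun c => sSup {t | 0 ≤ t ∧ u t ≤ c}, fun c => Real.sSup_nonneg (fun x hx => hx.1), ?_⟩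
  intro c hc t ht
  have hne : ({t | 0 ≤ t ∧ u t ≤ c} : Set ℝ).Nonempty := ⟨0, le_refl _, by rw [hu.zero]; exact hc⟩
  obtain ⟨T, hT0, hT⟩ := young_growth hu c
  have hbdd : BddAbove {t | 0 ≤ t ∧ u t ≤ c} := by
    refine ⟨T, fun x hx => ?_⟩
    by_contra hlt
    rw [not_le] at hlt
    have := hT x (by rw [abs_of_nonneg hx.1]; exact hlt.le)
    linarith [hx.2]
  have hcl : IsClosed {t | 0 ≤ t ∧ u t ≤ c} :=
    (isClosed_le continuous_const continuous_id).inter (isClosed_le hu.continuous continuous_const)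
  have hmem := hcl.csSup_mem hne hbdd
  constructor
  · intro h
    exact le_csSup hbdd ⟨ht, h⟩
  · intro h
    refine le_trans (hu.mono ?_) hmem.2
    rw [abs_of_nonneg ht, abs_of_nonneg hmem.1]
    exact h

end Vale.Agent.Lib.P254.OSum
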