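import Vale.Agent.Lib.P254.OSum.Gauge2
import Vale.Agent.Lib.P254.OSum.Young
import Vale.Agent.Lib.P254.OSum.Split

/-! O13. Compactness.
ROUTE `isCompact_PSet`: closed (`isClosed_le`, `hu.continuous`, `continuous_gaugeK`, `continuous_fst/snd`);
bounded: on the set `u₁ (gauge K₁ z.1) ≤ 1` and `u₂ (gauge K₂ z.2) ≤ 1` (`IsYoung.nonneg`), so by
`young_growth _ 1` the gauges are `< T₁`, `< T₂` (`gauge_nonneg`, `abs_of_nonneg`), and `norm_le_gauge`
bounds `‖z.1‖`, `‖z.2‖`; `Metric.isCompact_of_isClosed_isBounded`, `isBounded_iff_forall_norm_le`, `Prod.norm_def`.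
ROUTE `isCompact_OrlSum`: it is the image of the `PSet` under the continuous map
`z ↦ Fin.append z.1 z.2` (continuity: `continuous_pi` + `Fin.addCases`, `Fin.append_left/right`);
use `fstB_append`, `sndB_append`, `append_split`. -/

namespace Vale.Agent.Lib.P254.OSum

open MeasureTheory Set Vale.Agent.Lib.P254 Vale.Agent.Lib.P254.Orl

theorem isCompact_PSet {p q : ℕ} {K₁ : Set (Fin p → ℝ)} {K₂ : Set (Fin q → ℝ)}
    (hK₁ : IsConvexBody K₁) (sK₁ : Solid K₁) (hK₂ : IsConvexBody K₂) (sK₂ : Solid K₂)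
    {u₁ u₂ : ℝ → ℝ} (hu₁ : IsYoung u₁) (hu₂ : IsYoung u₂) :
    IsCompact {z : (Fin p → ℝ) × (Fin q → ℝ) | u₁ (gauge K₁ z.1) ≤ 1 - u₂ (gauge K₂ z.2)} := by
  obtain ⟨T₁, hT₁, hg₁⟩ := young_growth hu₁ 1
  obtain ⟨T₂, hT₂, hg₂⟩ := young_growth hu₂ 1
  obtain ⟨R₁, hR₁, hn₁⟩ := norm_le_gauge hK₁ sK₁
  obtain ⟨R₂, hR₂, hn₂⟩ := norm_le_gauge hK₂ sK₂
  apply Metric.isCompact_of_isClosed_isBounded
  · apply isClosed_le
    · exact hu₁.continuous.comp ((continuous_gaugeK hK₁ sK₁).comp continuous_fst)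
    · exact continuous_const.sub (hu₂.continuous.comp ((continuous_gaugeK hK₂ sK₂).comp continuous_snd))
  · rw [isBounded_iff_forall_norm_le]
    refine ⟨max (R₁ * T₁) (R₂ * T₂), ?_⟩
    rintro ⟨a, b⟩ hz
    simp only [Set.mem_ofPred_eq] at hz
    have h1 : u₁ (gauge K₁ a) ≤ 1 := by have := hu₂.nonneg (gauge K₂ b); linarith
    have h2 : u₂ (gauge K₂ b) ≤ 1 := by have := hu₁.nonneg (gauge K₁ a); linarith
    have g1 : gauge K₁ a < T₁ := by
      by_contra hc
      push Not at hc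
      have := hg₁ (gauge K₁ a) (by rwa [abs_of_nonneg (gauge_nonneg _)])
      linarith
    have g2 : gauge K₂ b < T₂ := by
      by_contra hc
      push Not at hc
      have := hg₂ (gauge K₂ b) (by rwa [abs_of_nonneg (gauge_nonneg _)])
      linarith
    rw [Prod.norm_def]
    apply max_le_max
    · exact (hn₁ a).trans (mul_le_mul_of_nonneg_left g1.le hR₁.le)
    · exact (hn₂ b).trans (mul_le_mul_of_nonneg_left g2.le hR₂.le)

theorem isCompact_OrlSum {p q : ℕ} {K₁ : Set (Fin p → ℝ)} {K₂ : Set (Fin q → ℝ)}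
    (hK₁ : IsConvexBody K₁) (sK₁ : Solid K₁) (hK₂ : IsConvexBody K₂) (sK₂ : Solid K₂)
    {u₁ u₂ : ℝ → ℝ} (hu₁ : IsYoung u₁) (hu₂ : IsYoung u₂) :
    IsCompact (OrlSum u₁ u₂ K₁ K₂) := by
  have hc : Continuous (fun z : (Fin p → ℝ) × (Fin q → ℝ) => Fin.append z.1 z.2) := by
    apply continuous_pi
    intro i
    refine Fin.addCases (fun j => ?_) (fun j => ?_) i
    · simp only [Fin.append_left]
      exact (continuous_apply j).comp continuous_fst
    · simp only [Fin.append_right]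
      exact (continuous_apply j).comp continuous_snd
  have himg : OrlSum u₁ u₂ K₁ K₂ = (fun z : (Fin p → ℝ) × (Fin q → ℝ) => Fin.append z.1 z.2) ''
      {z : (Fin p → ℝ) × (Fin q → ℝ) | u₁ (gauge K₁ z.1) ≤ 1 - u₂ (gauge K₂ z.2)} := by
    ext x
    constructor
    · intro hx
      refine ⟨(fstB x, sndB x), ?_, append_split x⟩
      simp only [Set.mem_ofPred_eq]
      have : u₁ (gauge K₁ (fstB x)) + u₂ (gauge K₂ (sndB x)) ≤ 1 := hx
      linarith
    · rintro ⟨⟨a, b⟩, hz, rfl⟩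
      simp only [Set.mem_ofPred_eq] at hz
      show u₁ (gauge K₁ (fstB (Fin.append a b))) + u₂ (gauge K₂ (sndB (Fin.append a b))) ≤ 1
      rw [fstB_append, sndB_append]
      linarith
  rw [himg]
  exact (isCompact_PSet hK₁ sK₁ hK₂ sK₂ hu₁ hu₂).image hc

end Vale.Agent.Lib.P254.OSum
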