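import Vale.Agent.Lib.P254.Orl.Main

/-! Orlicz sums of two solid convex bodies: definitions. -/

namespace Vale.Agent.Lib.P254.OSum

open MeasureTheory Set Vale.Agent.Lib.P254 Vale.Agent.Lib.P254.Orl

/-- the first `p` coordinates of a point of `ℝ^(p+q)` -/
def fstB {p q : ℕ} (x : Fin (p + q) → ℝ) : Fin p → ℝ := fun i => x (Fin.castAdd q i)

/-- the last `q` coordinates of a point of `ℝ^(p+q)` -/
def sndB {p q : ℕ} (x : Fin (p + q) → ℝ) : Fin q → ℝ := fun j => x (Fin.natAdd p j)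

/-- Orlicz sum `{(x, y) ∈ ℝ^p × ℝ^q : u₁(‖x‖_{K₁}) + u₂(‖y‖_{K₂}) ≤ 1}` of `K₁ ⊆ ℝ^p`, `K₂ ⊆ ℝ^q`,
where `‖·‖_K = gauge K` is the Minkowski functional of `K` -/
def OrlSum {p q : ℕ} (u₁ u₂ : ℝ → ℝ) (K₁ : Set (Fin p → ℝ)) (K₂ : Set (Fin q → ℝ)) :
    Set (Fin (p + q) → ℝ) :=
  {x | u₁ (gauge K₁ (fstB x)) + u₂ (gauge K₂ (sndB x)) ≤ 1}

/-- the volume inequality `∏ 4 E|x_i| ≤ |K|` -/
def BoxIneq {n : ℕ} (K : Set (Fin n → ℝ)) : Prop :=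
  ∏ i, (4 * ((vol K)⁻¹ * ∫ x in K, |x i|)) ≤ vol K

/-- the mean over `K` of `u (s ‖z‖_K)` -/
noncomputable def meanU {p : ℕ} (u : ℝ → ℝ) (K : Set (Fin p → ℝ)) (s : ℝ) : ℝ :=
  (vol K)⁻¹ * ∫ z in K, u (s * gauge K z)

/-- the product `r₁ K₁ × r₂ K₂` inside `ℝ^(p+q)` -/
def PBox {p q : ℕ} (A : Set (Fin p → ℝ)) (B : Set (Fin q → ℝ)) : Set (Fin (p + q) → ℝ) :=
  {x | fstB x ∈ A ∧ sndB x ∈ B}

end Vale.Agent.Lib.P254.OSum
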