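import Vale.Agent.Lib.P254.OSum.MainO

/-! Truncated Orlicz sums: definition. -/

namespace Vale.Agent.Lib.P254.OSum

open MeasureTheory Set Vale.Agent.Lib.P254 Vale.Agent.Lib.P254.Orl

/-- truncated Orlicz sum
`{(x, y) ∈ ℝ^p × ℝ^q : ‖x‖_{K₁} ≤ A₁, ‖y‖_{K₂} ≤ A₂, u₁(‖x‖_{K₁}) + u₂(‖y‖_{K₂}) ≤ 1}` -/
def TSum {p q : ℕ} (u₁ u₂ : ℝ → ℝ) (A₁ A₂ : ℝ) (K₁ : Set (Fin p → ℝ)) (K₂ : Set (Fin q → ℝ)) :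
    Set (Fin (p + q) → ℝ) :=
  {x | gauge K₁ (fstB x) ≤ A₁ ∧ gauge K₂ (sndB x) ≤ A₂ ∧
    u₁ (gauge K₁ (fstB x)) + u₂ (gauge K₂ (sndB x)) ≤ 1}

/-- the level function used for the fibres over the other block: `1 - u(‖y‖_K)` if `‖y‖_K ≤ A`, else `-1` -/
noncomputable def cT {q : ℕ} (u : ℝ → ℝ) (A : ℝ) (K : Set (Fin q → ℝ)) (y : Fin q → ℝ) : ℝ :=
  if gauge K y ≤ A then 1 - u (gauge K y) else -1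

end Vale.Agent.Lib.P254.OSum
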