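import Vale.Agent.Lib.P254.OSum.Gauge
import Vale.Agent.Lib.P254.OSum.Young

/-! O6. The sublevel sets of `u ∘ gauge K` are dilates of `K` (up to null sets).
ROUTE: take `σ₀` from `young_level hu` and `σ c = if 0 ≤ c then σ₀ c else 0`.
`c ≥ 0`: `{x | u (gauge K x) ≤ c} = σ c • K` by `young_level` (with `t = gauge K x ≥ 0`) and `gauge_le_iff`.
`c < 0`: the set is empty (`IsYoung.nonneg`), and `0 • K ⊆ {0}` is a null set (`p > 0`), so both integrals
vanish (`setIntegral_measure_zero` / `Measure.restrict_eq_zero`). -/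

namespace Vale.Agent.Lib.P254.OSum

open MeasureTheory Set Vale.Agent.Lib.P254 Vale.Agent.Lib.P254.Orl
open scoped Pointwise

theorem fibre_integral {p : ℕ} (hp : 0 < p) {K : Set (Fin p → ℝ)} (hK : IsConvexBody K)
    (sK : Solid K) {u : ℝ → ℝ} (hu : IsYoung u) :
    ∃ σ : ℝ → ℝ, (∀ c, 0 ≤ σ c) ∧ ∀ (c : ℝ) (φ : (Fin p → ℝ) → ℝ),
      ∫ x in {x | u (gauge K x) ≤ c}, φ x = ∫ x in (σ c) • K, φ x := by
  obtain ⟨σ₀, hσ0, hσ⟩ := young_level hu
  refine ⟨fun c => if 0 ≤ c then σ₀ c else 0, ?_, ?_⟩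
  · intro c
    dsimp only
    split_ifs
    · exact hσ0 c
    · exact le_rfl
  · intro c φ
    dsimp only
    split_ifs with hc
    · have : {x | u (gauge K x) ≤ c} = σ₀ c • K := by
        ext x
        rw [Set.mem_ofPred_eq, hσ c hc _ (gauge_nonneg x), gauge_le_iff hK sK (hσ0 c)]
      rw [this]
    · have h1 : {x | u (gauge K x) ≤ c} = ∅ := by
        ext x
        simp only [Set.mem_ofPred_eq, Set.mem_empty_iff_false, iff_false, not_le]
        exact lt_of_lt_of_le (not_le.mp hc) (hu.nonneg _)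
      rw [h1]
      have : Nonempty (Fin p) := ⟨⟨0, hp⟩⟩
      have h2 : (volume : Measure (Fin p → ℝ)) ((0:ℝ) • K) = 0 := by
        apply measure_mono_null (Set.zero_smul_set_subset K)
        exact measure_singleton _
      rw [setIntegral_measure_zero _ h2]
      simp

end Vale.Agent.Lib.P254.OSum
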