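import Vale.Agent.Lib.P254.OSum.DefsT

/-! T1. Truncated version of `Fibre.lean` (ADAPT its proof).
ROUTE: `σ₀` from `young_level hu`, `σ c = if 0 ≤ c then min A (σ₀ c) else 0`.  For `c ≥ 0`:
`gauge K x ≤ A ∧ u (gauge K x) ≤ c ↔ gauge K x ≤ min A (σ₀ c)` (`le_min_iff`), then `gauge_le_iff`.
For `c < 0` the set is empty and `0 • K` is null. -/

namespace Vale.Agent.Lib.P254.OSum

open MeasureTheory Set Vale.Agent.Lib.P254 Vale.Agent.Lib.P254.Orl
open scoped Pointwise

theorem fibre_integral_T {p : ℕ} (hp : 0 < p) {K : Set (Fin p → ℝ)} (hK : IsConvexBody K)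
    (sK : Solid K) {u : ℝ → ℝ} (hu : IsYoung u) {A : ℝ} (hA : 0 ≤ A) :
    ∃ σ : ℝ → ℝ, (∀ c, 0 ≤ σ c) ∧ (∀ c, σ c ≤ A) ∧ ∀ (c : ℝ) (φ : (Fin p → ℝ) → ℝ),
      ∫ x in {x | gauge K x ≤ A ∧ u (gauge K x) ≤ c}, φ x = ∫ x in (σ c) • K, φ x := by
  obtain ⟨σ₀, hσ0, hσ⟩ := young_level hu
  refine ⟨fun c => if 0 ≤ c then min A (σ₀ c) else 0, ?_, ?_, ?_⟩
  · intro c
    dsimp only
    split_ifs
    · exact le_min hA (hσ0 c)
    · exact le_rfl
  · intro c
    dsimp only
    split_ifs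
    · exact min_le_left _ _
    · exact hA
  · intro c φ
    dsimp only
    split_ifs with hc
    · have : {x | gauge K x ≤ A ∧ u (gauge K x) ≤ c} = min A (σ₀ c) • K := by
        ext x
        rw [Set.mem_ofPred_eq, hσ c hc _ (gauge_nonneg x), ← le_min_iff,
          gauge_le_iff hK sK (le_min hA (hσ0 c))]
      rw [this]
    · have h1 : {x | gauge K x ≤ A ∧ u (gauge K x) ≤ c} = ∅ := by
        ext x
        simp only [Set.mem_ofPred_eq, Set.mem_empty_iff_false, iff_false, not_and, not_le]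
        intro _
        exact lt_of_lt_of_le (not_le.mp hc) (hu.nonneg _)
      rw [h1]
      have : Nonempty (Fin p) := ⟨⟨0, hp⟩⟩
      have h2 : (volume : Measure (Fin p → ℝ)) ((0:ℝ) • K) = 0 := by
        apply measure_mono_null (Set.zero_smul_set_subset K)
        exact measure_singleton _
      rw [setIntegral_measure_zero _ h2]
      simp

end Vale.Agent.Lib.P254.OSum
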