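import Vale.Agent.Lib.P254.OSum.Defs

/-! O7. Fubini on `ℝ^p × ℝ^q` for a compact set `S` and a function of the first variable.
ROUTE: `f z = S.indicator (fun z => φ z.1) z` is integrable on the product
(`(hφ.comp continuous_fst).continuousOn.integrableOn_compact kS`, `integrable_indicator_iff`,
`kS.measurableSet`).  `integral_prod_symm` gives `∫ f = ∫ y, ∫ x, f (x, y)`, `Integrable.integral_prod_right`
the integrability of the inner integral; and `∫ x, f (x, y) = ∫ x in {x | (x, y) ∈ S}, φ x`
by `integral_indicator` (the section is measurable: `measurable_prodMk_right kS.measurableSet`). -/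

namespace Vale.Agent.Lib.P254.OSum

open MeasureTheory Set Vale.Agent.Lib.P254 Vale.Agent.Lib.P254.Orl

theorem fubini_fst {p q : ℕ} {S : Set ((Fin p → ℝ) × (Fin q → ℝ))} (kS : IsCompact S)
    (φ : (Fin p → ℝ) → ℝ) (hφ : Continuous φ) :
    Integrable (fun y : Fin q → ℝ => ∫ x in {x | (x, y) ∈ S}, φ x) ∧
      ∫ z in S, φ z.1 = ∫ y : Fin q → ℝ, ∫ x in {x | (x, y) ∈ S}, φ x := by
  have mS : MeasurableSet S := kS.measurableSet
  have hint : Integrable (S.indicator (fun z : (Fin p → ℝ) × (Fin q → ℝ) => φ z.1))
      (volume.prod volume) := by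
    rw [integrable_indicator_iff mS]
    exact (hφ.comp continuous_fst).continuousOn.integrableOn_compact kS
  have hsec : ∀ y : Fin q → ℝ,
      ∫ x, S.indicator (fun z : (Fin p → ℝ) × (Fin q → ℝ) => φ z.1) (x, y)
        = ∫ x in {x | (x, y) ∈ S}, φ x := by
    intro y
    have hm : MeasurableSet {x : Fin p → ℝ | (x, y) ∈ S} := measurable_prodMk_right mS
    rw [← integral_indicator hm]
    congr 1
  constructor
  · have h := hint.integral_prod_right
    simpa only [hsec] using h
  · have h := integral_prod_symm _ hint
    rw [← integral_indicator mS]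
    rw [← Measure.volume_eq_prod] at h
    rw [h]
    simp only [hsec]

end Vale.Agent.Lib.P254.OSum
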