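import Vale.Agent.Lib.P254.OSum.Defs

/-! O5. Integrals over dilates, positivity of first moments.
ROUTE `setIntegral_smul_set`: `s = 0`: `0 • K ⊆ {0}` is a null set (`haveI : Nonempty (Fin p)`, no atoms) and
`0 ^ p = 0`.  `s > 0`: `MeasureTheory.Measure.setIntegral_comp_smul_of_pos volume φ K hs` and
`Module.finrank_fin_fun`.
ROUTE `integral_abs_pos`: `K` has nonempty interior `U` (open, nonempty); `U \ {x | x i = 0}` is open nonempty,
so it has positive measure, and `|x i| > 0` on it: `setIntegral_pos_iff_support_of_nonneg_ae`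
(integrability: continuous on a compact set). -/

namespace Vale.Agent.Lib.P254.OSum

open MeasureTheory Set Vale.Agent.Lib.P254 Vale.Agent.Lib.P254.Orl
open scoped Pointwise

theorem setIntegral_smul_set {p : ℕ} (hp : 0 < p) (K : Set (Fin p → ℝ)) {s : ℝ} (hs : 0 ≤ s)
    (φ : (Fin p → ℝ) → ℝ) :
    ∫ x in s • K, φ x = s ^ p * ∫ x in K, φ (s • x) := by
  rcases hs.eq_or_lt with h0 | hpos
  · subst h0
    have : Nonempty (Fin p) := ⟨⟨0, hp⟩⟩
    have hnull : volume ((0 : ℝ) • K) = 0 := by
      refine measure_mono_null (Set.zero_smul_set_subset K) ?_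
      rw [← Set.singleton_zero]
      exact measure_singleton 0
    rw [zero_pow hp.ne', zero_mul]
    exact setIntegral_measure_zero _ hnull
  · have h := MeasureTheory.Measure.setIntegral_comp_smul_of_pos volume φ K hpos
    rw [Module.finrank_fin_fun] at h
    rw [h, smul_eq_mul, ← mul_assoc, mul_inv_cancel₀ (pow_ne_zero _ hpos.ne'), one_mul]

theorem integral_abs_pos {p : ℕ} {K : Set (Fin p → ℝ)} (hK : IsConvexBody K) (i : Fin p) :
    0 < ∫ x in K, |x i| := by
  obtain ⟨kK, -, hne⟩ := hK
  have hcont : Continuous (fun x : Fin p → ℝ => |x i|) := (continuous_apply i).abs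
  have hint : IntegrableOn (fun x : Fin p → ℝ => |x i|) K :=
    hcont.continuousOn.integrableOn_compact kK
  rw [setIntegral_pos_iff_support_of_nonneg_ae (Filter.Eventually.of_forall fun x => abs_nonneg _) hint]
  -- open nonempty subset
  set U : Set (Fin p → ℝ) := interior K ∩ {x | x i ≠ 0} with hU
  have hUo : IsOpen U := isOpen_interior.inter (isOpen_ne_fun (continuous_apply i) continuous_const)
  have hUne : U.Nonempty := by
    obtain ⟨x, hx⟩ := hne
    by_cases hxi : x i = 0
    · -- perturb
      obtain ⟨ε, hε, hball⟩ := Metric.isOpen_iff.1 isOpen_interior x hx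
      refine ⟨x + Pi.single i (ε / 2), hball ?_, ?_⟩
      · rw [Metric.mem_ball, dist_eq_norm, add_sub_cancel_left, Pi.norm_single, Real.norm_eq_abs,
          abs_of_pos (by linarith)]
        linarith
      · simp [hxi, hε.ne']
    · exact ⟨x, hx, hxi⟩
  refine lt_of_lt_of_le (hUo.measure_pos volume hUne) (measure_mono ?_)
  intro x hx
  refine ⟨?_, interior_subset hx.1⟩
  simpa [Function.mem_support] using hx.2

end Vale.Agent.Lib.P254.OSum
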