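import Vale.Agent.Lib.P254.OSum.Fibre
import Vale.Agent.Lib.P254.OSum.Scale
import Vale.Agent.Lib.P254.OSum.FubiniP

/-! O9. The three integral formulas for `S = {(x, y) : u (‖x‖_K) ≤ c y}`.
ROUTE: `σ` from `fibre_integral hp hK sK hu`, `s y = σ (c y)`.  The section `{x | (x, y) ∈ S}` is
definitionally `{x | u (gauge K x) ≤ c y}`.  For continuous `φ`:
`∫ x in section, φ x = ∫ x in s y • K, φ x = s y ^ p * ∫ x in K, φ (s y • x)` (`setIntegral_smul_set`).
* `φ = 1`: `∫_S 1 = (volume S).toReal` (`setIntegral_const`/`integral_const`, `measureReal_def`), inner `= s^p * vol K`.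
* `φ = |x i|`: inner `= s^p * ∫_K |s x_i| = s^(p+1) * ∫_K |x i|` (`abs_mul`, `abs_of_nonneg`, `integral_const_mul`).
* `φ = u ∘ gauge K` (continuous by `hu.continuous`, `continuous_gaugeK`): `gauge_smul_of_nonneg`, inner
  `= s^p * (vol K * meanU u K (s y))` (`vol K > 0` by `vol_pos hK`).
Integrability: from `fubini_fst ... .1` after dividing by the positive constants `vol K`,
`∫_K |x i₀|` (`integral_abs_pos hK ⟨0, hp⟩`): `Integrable.const_mul` / `Integrable.congr`. -/

namespace Vale.Agent.Lib.P254.OSum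

open MeasureTheory Set Vale.Agent.Lib.P254 Vale.Agent.Lib.P254.Orl
open scoped Pointwise

theorem block_formulas {p q : ℕ} (hp : 0 < p) {K : Set (Fin p → ℝ)} (hK : IsConvexBody K)
    (sK : Solid K) {u : ℝ → ℝ} (hu : IsYoung u) (c : (Fin q → ℝ) → ℝ)
    (kS : IsCompact {z : (Fin p → ℝ) × (Fin q → ℝ) | u (gauge K z.1) ≤ c z.2}) :
    ∃ s : (Fin q → ℝ) → ℝ, (∀ y, 0 ≤ s y) ∧
      Integrable (fun y => s y ^ p) ∧ Integrable (fun y => s y ^ (p + 1)) ∧
      Integrable (fun y => s y ^ p * meanU u K (s y)) ∧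
      (volume {z : (Fin p → ℝ) × (Fin q → ℝ) | u (gauge K z.1) ≤ c z.2}).toReal
        = vol K * ∫ y, s y ^ p ∧
      (∀ i, ∫ z in {z : (Fin p → ℝ) × (Fin q → ℝ) | u (gauge K z.1) ≤ c z.2}, |z.1 i|
        = (∫ y, s y ^ (p + 1)) * ∫ x in K, |x i|) ∧
      ∫ z in {z : (Fin p → ℝ) × (Fin q → ℝ) | u (gauge K z.1) ≤ c z.2}, u (gauge K z.1)
        = vol K * ∫ y, s y ^ p * meanU u K (s y) := by
  obtain ⟨σ, hσ0, hσ⟩ := fibre_integral hp hK sK hu
  set S : Set ((Fin p → ℝ) × (Fin q → ℝ)) := {z | u (gauge K z.1) ≤ c z.2} with hS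
  have hv : 0 < vol K := vol_pos hK
  have key : ∀ (φ : (Fin p → ℝ) → ℝ) (y : Fin q → ℝ),
      ∫ x in {x | (x, y) ∈ S}, φ x = σ (c y) ^ p * ∫ x in K, φ (σ (c y) • x) := by
    intro φ y
    have h0 : {x : Fin p → ℝ | (x, y) ∈ S} = {x | u (gauge K x) ≤ c y} := rfl
    rw [h0, hσ (c y) φ, setIntegral_smul_set hp K (hσ0 _) φ]
  -- the three inner integrals
  have hK1 : ∫ _x in K, (1 : ℝ) = vol K := by
    rw [setIntegral_const]
    simp [vol, measureReal_def]
  have in1 : (fun y : Fin q → ℝ => ∫ _x in {x | (x, y) ∈ S}, (1 : ℝ))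
      = fun y => σ (c y) ^ p * vol K := by
    funext y
    rw [key (fun _ => (1 : ℝ)) y, hK1]
  have in2 : ∀ i : Fin p, (fun y : Fin q → ℝ => ∫ x in {x | (x, y) ∈ S}, |x i|)
      = fun y => σ (c y) ^ (p + 1) * ∫ x in K, |x i| := by
    intro i
    funext y
    rw [key (fun x => |x i|) y]
    have : ∀ x : Fin p → ℝ, |(σ (c y) • x) i| = σ (c y) * |x i| := by
      intro x
      rw [Pi.smul_apply, smul_eq_mul, abs_mul, abs_of_nonneg (hσ0 _)]
    simp only [this]
    rw [integral_const_mul, pow_succ]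
    ring
  have in3 : (fun y : Fin q → ℝ => ∫ x in {x | (x, y) ∈ S}, u (gauge K x))
      = fun y => (σ (c y) ^ p * meanU u K (σ (c y))) * vol K := by
    funext y
    rw [key (fun x => u (gauge K x)) y]
    have : ∀ x : Fin p → ℝ, u (gauge K (σ (c y) • x)) = u (σ (c y) * gauge K x) := by
      intro x
      rw [gauge_smul_of_nonneg (hσ0 _), smul_eq_mul]
    simp only [this]
    unfold meanU
    field_simp
  have F1 := fubini_fst kS (fun _ => (1 : ℝ)) continuous_const
  have F2 := fun i : Fin p => fubini_fst kS (fun x : Fin p → ℝ => |x i|)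
    (continuous_abs.comp (continuous_apply i))
  have F3 := fubini_fst kS (fun x : Fin p → ℝ => u (gauge K x))
    (hu.continuous.comp (continuous_gaugeK hK sK))
  rw [in1] at F1
  rw [in3] at F3
  have hm : 0 < ∫ x in K, |x ⟨0, hp⟩| := integral_abs_pos hK ⟨0, hp⟩
  have I1 : Integrable (fun y : Fin q → ℝ => σ (c y) ^ p) := by
    have := F1.1.mul_const (vol K)⁻¹
    refine this.congr (Filter.Eventually.of_forall fun y => ?_)
    simp only
    field_simp
  have I2 : Integrable (fun y : Fin q → ℝ => σ (c y) ^ (p + 1)) := by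
    have h2 := (F2 ⟨0, hp⟩).1
    rw [in2] at h2
    have := h2.mul_const (∫ x in K, |x ⟨0, hp⟩|)⁻¹
    refine this.congr (Filter.Eventually.of_forall fun y => ?_)
    simp only
    field_simp
  have I3 : Integrable (fun y : Fin q → ℝ => σ (c y) ^ p * meanU u K (σ (c y))) := by
    have := F3.1.mul_const (vol K)⁻¹
    refine this.congr (Filter.Eventually.of_forall fun y => ?_)
    simp only
    field_simp
  refine ⟨fun y => σ (c y), fun y => hσ0 _, I1, I2, I3, ?_, ?_, ?_⟩
  · have h1 : (volume S).toReal = ∫ _z in S, (1 : ℝ) := by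
      rw [setIntegral_const]
      simp [measureReal_def]
    rw [h1, F1.2, integral_mul_const, mul_comm]
  · intro i
    have h2 := (F2 i).2
    rw [in2] at h2
    rw [h2, integral_mul_const]
  · rw [F3.2, integral_mul_const, mul_comm]

end Vale.Agent.Lib.P254.OSum
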