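import Vale.Agent.Lib.P254.OSum.Defs

/-! O1. Gauge of a solid convex body `K ⊆ ℝ^p`.
ROUTE: `K` solid ⇒ `-x ∈ K` for `x ∈ K`; the interior is convex and symmetric, so `0 ∈ interior K`.
Mathlib: `continuous_gauge`, `gauge_le_one_iff_mem_closure`, `gauge_smul_of_nonneg`,
`gauge_smul_left_of_nonneg`, `gauge_le_of_mem`, `gauge_nonneg`, `gauge_add_le`, `le_gauge_of_subset_closedBall`,
`gauge_le_one_of_mem`, `absorbent_nhds_zero`, `mem_smul_set_iff_inv_smul_mem₀`. -/

namespace Vale.Agent.Lib.P254.OSum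

open MeasureTheory Set Vale.Agent.Lib.P254 Vale.Agent.Lib.P254.Orl
open scoped Pointwise

variable {p : ℕ} {K : Set (Fin p → ℝ)}

theorem zero_mem_interior (hK : IsConvexBody K) (sK : Solid K) : (0 : Fin p → ℝ) ∈ interior K := by
  obtain ⟨hc, hconv, x, hx⟩ := hK
  have hx' : -x ∈ interior K := by
    have hopen : IsOpen ((fun y : Fin p → ℝ => -y) ⁻¹' interior K) :=
      isOpen_interior.preimage continuous_neg
    have hsub : ((fun y : Fin p → ℝ => -y) ⁻¹' interior K) ⊆ K := by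
      intro y hy
      have h3 : -y ∈ K := interior_subset hy
      exact sK _ h3 y (by intro j; simp)
    exact interior_maximal hsub hopen (by simpa using hx)
  have h2 := hconv.interior hx hx' (by norm_num : (0:ℝ) ≤ 1/2) (by norm_num : (0:ℝ) ≤ 1/2)
    (by norm_num)
  simpa using h2

theorem continuous_gaugeK (hK : IsConvexBody K) (sK : Solid K) : Continuous (gauge K) :=
  continuous_gauge hK.2.1 (mem_interior_iff_mem_nhds.1 (zero_mem_interior hK sK))

/-- `‖x‖_K ≤ s ↔ x ∈ s K` for `s ≥ 0` (for `s = 0`: `K` is bounded, so `gauge K x = 0 → x = 0`) -/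
theorem gauge_le_iff (hK : IsConvexBody K) (sK : Solid K) {s : ℝ} (hs : 0 ≤ s) (x : Fin p → ℝ) :
    gauge K x ≤ s ↔ x ∈ s • K := by
  have h0 : K ∈ nhds (0 : Fin p → ℝ) := mem_interior_iff_mem_nhds.1 (zero_mem_interior hK sK)
  have habs : Absorbent ℝ K := absorbent_nhds_zero h0
  rcases hs.eq_or_lt with rfl | hs
  · have hne : K.Nonempty := ⟨0, mem_of_mem_nhds h0⟩
    rw [zero_smul_set hne]
    have hb : Bornology.IsVonNBounded ℝ K :=
      NormedSpace.isVonNBounded_iff ℝ |>.2 hK.1.isBounded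
    constructor
    · intro h
      have : gauge K x = 0 := le_antisymm h (gauge_nonneg x)
      exact (gauge_eq_zero habs hb).1 this
    · intro h
      have : x = 0 := h
      rw [this, gauge_zero]
  · rw [mem_smul_set_iff_inv_smul_mem₀ hs.ne']
    have h1 : gauge K (s⁻¹ • x) ≤ 1 ↔ s⁻¹ • x ∈ K := by
      rw [gauge_le_one_iff_mem_closure hK.2.1 h0, hK.1.isClosed.closure_eq]
    rw [← h1, gauge_smul_of_nonneg (inv_nonneg.2 hs.le), smul_eq_mul, inv_mul_le_iff₀ hs, mul_one]

end Vale.Agent.Lib.P254.OSum
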