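import Vale.Agent.Lib.P254.OSum.Gauge

/-! O2. More gauge facts.  ROUTE: `gauge_mono_solid`: for every `s > gauge K x` (or use `gauge_le_iff`
with `s = gauge K x ≥ 0`): `x ∈ s • K`, i.e. `x = s • k`; if `s = 0` then `x = 0`, so `y = 0`; otherwise
`s⁻¹ • y` has coordinates dominated by those of `k`, so it is in `K` and `y ∈ s • K`.
`norm_le_gauge`: `K ⊆ closedBall 0 R` (compact), `le_gauge_of_subset_closedBall` gives `‖x‖ / R ≤ gauge K x`.
`convexOn_gauge`: `gauge_add_le`, `gauge_smul_of_nonneg`. -/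

namespace Vale.Agent.Lib.P254.OSum

open MeasureTheory Set Vale.Agent.Lib.P254 Vale.Agent.Lib.P254.Orl
open scoped Pointwise

variable {p : ℕ} {K : Set (Fin p → ℝ)}

theorem gauge_mono_solid (hK : IsConvexBody K) (sK : Solid K) {x y : Fin p → ℝ}
    (h : ∀ j, |y j| ≤ |x j|) : gauge K y ≤ gauge K x := by
  have hs : 0 ≤ gauge K x := gauge_nonneg x
  rw [gauge_le_iff hK sK hs]
  have hx : x ∈ gauge K x • K := (gauge_le_iff hK sK hs x).1 le_rfl
  rcases hs.eq_or_lt with h0 | h0
  · rw [← h0] at hx ⊢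
    have hne : K.Nonempty := ⟨0, interior_subset (zero_mem_interior hK sK)⟩
    rw [zero_smul_set hne] at hx ⊢
    have hx0 : x = 0 := hx
    have : y = 0 := by
      funext j
      have := h j
      rw [hx0] at this
      simpa using this
    exact this
  · rw [mem_smul_set_iff_inv_smul_mem₀ h0.ne'] at hx ⊢
    refine sK _ hx _ ?_
    intro j
    simp only [Pi.smul_apply, smul_eq_mul, abs_mul]
    exact mul_le_mul_of_nonneg_left (h j) (abs_nonneg _)

theorem norm_le_gauge (hK : IsConvexBody K) (sK : Solid K) :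
    ∃ R : ℝ, 0 < R ∧ ∀ x : Fin p → ℝ, ‖x‖ ≤ R * gauge K x := by
  have h0 : K ∈ nhds (0 : Fin p → ℝ) := mem_interior_iff_mem_nhds.1 (zero_mem_interior hK sK)
  have habs : Absorbent ℝ K := absorbent_nhds_zero h0
  obtain ⟨R, hR⟩ := hK.1.isBounded.subset_closedBall (0 : Fin p → ℝ)
  refine ⟨max R 1, lt_of_lt_of_le one_pos (le_max_right _ _), fun x => ?_⟩
  have hpos : 0 < max R 1 := lt_of_lt_of_le one_pos (le_max_right _ _)
  have h1 := le_gauge_of_subset_closedBall (x := x) habs hpos.le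
    (hR.trans (Metric.closedBall_subset_closedBall (le_max_left _ _)))
  rwa [div_le_iff₀ hpos, mul_comm] at h1

theorem convexOn_gauge (hK : IsConvexBody K) (sK : Solid K) : ConvexOn ℝ univ (gauge K) := by
  have h0 : K ∈ nhds (0 : Fin p → ℝ) := mem_interior_iff_mem_nhds.1 (zero_mem_interior hK sK)
  have habs : Absorbent ℝ K := absorbent_nhds_zero h0
  refine ⟨convex_univ, ?_⟩
  intro x _ y _ a b ha hb _
  calc gauge K (a • x + b • y) ≤ gauge K (a • x) + gauge K (b • y) := gauge_add_le hK.2.1 habs _ _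
    _ = a • gauge K x + b • gauge K y := by
      rw [gauge_smul_of_nonneg ha, gauge_smul_of_nonneg hb]

end Vale.Agent.Lib.P254.OSum
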