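import Vale.Agent.Lib.P254.OSum.MainO

/-! Iterated Orlicz sums, and the conjecture for them. -/

namespace Vale.Agent.Lib.P254.OSum

open MeasureTheory Set Vale.Agent.Lib.P254 Vale.Agent.Lib.P254.Orl

/-- The class of iterated Orlicz sums: the smallest class of bodies that contains all generalized Orlicz
balls `{x ∈ ℝ^n : ∑ v_i(x_i) ≤ 1}` (`n ≥ 1`; for `n = 1` these are the symmetric intervals) and is closed
under Orlicz sums `{(x, y) : u₁(‖x‖_{K₁}) + u₂(‖y‖_{K₂}) ≤ 1}`. -/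
inductive IterOrl : (n : ℕ) → Set (Fin n → ℝ) → Prop
  | base {n : ℕ} (hn : 0 < n) (v : Fin n → ℝ → ℝ) (hv : ∀ i, IsYoung (v i)) : IterOrl n (OB v)
  | sum {p q : ℕ} {K₁ : Set (Fin p → ℝ)} {K₂ : Set (Fin q → ℝ)} (u₁ u₂ : ℝ → ℝ)
      (h₁ : IterOrl p K₁) (h₂ : IterOrl q K₂) (hu₁ : IsYoung u₁) (hu₂ : IsYoung u₂) :
      IterOrl (p + q) (OrlSum u₁ u₂ K₁ K₂)

theorem IterOrl.props {n : ℕ} {K : Set (Fin n → ℝ)} (h : IterOrl n K) :
    0 < n ∧ IsConvexBody K ∧ Solid K ∧ BoxIneq K := by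
  induction h with
  | base hn v hv =>
    rename_i n
    obtain ⟨m, rfl⟩ : ∃ m, n = m + 1 := ⟨n - 1, by omega⟩
    exact ⟨hn, isConvexBody_OB hv, solid_OB hv, lemmaB m hv⟩
  | sum u₁ u₂ _ _ hu₁ hu₂ ih₁ ih₂ =>
    obtain ⟨hp, c₁, s₁, b₁⟩ := ih₁
    obtain ⟨hq, c₂, s₂, b₂⟩ := ih₂
    exact ⟨by omega, isConvexBody_OrlSum c₁ s₁ c₂ s₂ hu₁ hu₂, solid_OrlSum c₁ s₁ c₂ s₂ hu₁ hu₂,
      boxIneq_OrlSum hp hq c₁ s₁ b₁ c₂ s₂ b₂ hu₁ hu₂⟩

/-- a solid convex body with `∏ 4 E|x_i| ≤ |K|` satisfies the conjecture, strictly -/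
theorem concl_of_boxIneq (n : ℕ) (hn : 2 ≤ n) {S : Set (Fin n → ℝ)} (hS : IsSimplex S)
    {K : Set (Fin n → ℝ)} (hK : IsConvexBody K) (sK : Solid K) (hB : BoxIneq K) :
    isoConst K ^ 2 ≤ ((n : ℝ) + 1) / (8 * ((n : ℝ) + 2)) ∧ isoConst K < isoConst S := by
  obtain ⟨m, rfl⟩ : ∃ m, n = m + 1 := ⟨n - 1, by omega⟩
  have hm : 0 < m := by omega
  have hSc : IsCompact S := (isConvexBody_of_isSimplex hS).1
  have hV : 0 < vol K := vol_pos hK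
  have hr := ratio_le_of_box m hm hK.2.1 sK hK.1 hV hB
  have hp := isoConst_pow hK.1
  rw [Fintype.card_fin] at hp
  constructor
  · have hq : (0 : ℝ) ≤ (((m + 1 : ℕ) : ℝ) + 1) / (8 * (((m + 1 : ℕ) : ℝ) + 2)) := by positivity
    have h2 : (isoConst K ^ 2) ^ (m + 1)
        ≤ ((((m + 1 : ℕ) : ℝ) + 1) / (8 * (((m + 1 : ℕ) : ℝ) + 2))) ^ (m + 1) := by
      rw [← pow_mul, hp]; exact hr
    exact (pow_le_pow_iff_left₀ (by positivity) hq (Nat.succ_ne_zero m)).mp h2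
  · rw [← not_le, isoConst_le_iff hSc hK.1, not_le, ratio_simplex hS]
    exact lt_of_le_of_lt hr (bound_lt_simplexRatio (m + 1) hn)

end Vale.Agent.Lib.P254.OSum
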