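import Vale.Agent.Lib.P254.OSum.BlockTT
import Vale.Agent.Lib.P254.OSum.BathtubD

/-! T7. Truncated version of `MainO.lean` (ADAPT its proofs).
ROUTE `vol_PBox_le_T`: `D = {x | gauge K₁ (fstB x) ≤ A₁ ∧ gauge K₂ (sndB x) ≤ A₂}`,
`TSum .. = D ∩ {x | 0 ≤ wS u₁ u₂ K₁ K₂ x}` (`ext`, `wS`, `linarith`).  `B = PBox (r₁ • K₁) (r₂ • K₂) ⊆ D` by
`gauge_le_iff` (`x ∈ r • K → gauge K x ≤ r ≤ A`).  `0 ∈ interior D`: `{gauge K₁ (fstB x) < A₁} ∩ {.. < A₂}` is open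
(continuity as in `Body.lean`), contains `0`.  Then as in `vol_PBox_le` with `bathtub_dom`, `integral_pos_dom`,
`integral_wS_eq` (for the compact `TSum`), `integral_wS_PBox`.
ROUTE `boxIneq_TSum`: verbatim `boxIneq_OrlSum` with `block_fst_T`, `block_snd_T`, `vol_PBox_le_T`. -/

namespace Vale.Agent.Lib.P254.OSum

open MeasureTheory Set Vale.Agent.Lib.P254 Vale.Agent.Lib.P254.Orl
open scoped Pointwise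

variable {p q : ℕ} {K₁ : Set (Fin p → ℝ)} {K₂ : Set (Fin q → ℝ)} {u₁ u₂ : ℝ → ℝ} {A₁ A₂ : ℝ}

theorem vol_PBox_le_T (hp : 0 < p) (hq : 0 < q) (hK₁ : IsConvexBody K₁) (sK₁ : Solid K₁)
    (hK₂ : IsConvexBody K₂) (sK₂ : Solid K₂) (hu₁ : IsYoung u₁) (hu₂ : IsYoung u₂)
    (hA₁ : 0 < A₁) (hA₂ : 0 < A₂)
    {r₁ r₂ : ℝ} (h₁ : 0 ≤ r₁) (h₂ : 0 ≤ r₂) (l₁ : r₁ ≤ A₁) (l₂ : r₂ ≤ A₂)
    (e₁ : vol (TSum u₁ u₂ A₁ A₂ K₁ K₂) * meanU u₁ K₁ r₁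
      ≤ ∫ x in TSum u₁ u₂ A₁ A₂ K₁ K₂, u₁ (gauge K₁ (fstB x)))
    (e₂ : vol (TSum u₁ u₂ A₁ A₂ K₁ K₂) * meanU u₂ K₂ r₂
      ≤ ∫ x in TSum u₁ u₂ A₁ A₂ K₁ K₂, u₂ (gauge K₂ (sndB x))) :
    vol (PBox (r₁ • K₁) (r₂ • K₂)) ≤ vol (TSum u₁ u₂ A₁ A₂ K₁ K₂) := by
  have hbody := isConvexBody_TSum hK₁ sK₁ hK₂ sK₂ hu₁ hu₂ hA₁ hA₂
  have hV : 0 < vol (TSum u₁ u₂ A₁ A₂ K₁ K₂) := vol_pos hbody
  have kK : IsCompact (TSum u₁ u₂ A₁ A₂ K₁ K₂) := hbody.1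
  have kB : IsCompact (PBox (r₁ • K₁) (r₂ • K₂)) :=
    isCompact_PBox (hK₁.1.smul r₁) (hK₂.1.smul r₂)
  have hw : Continuous (wS u₁ u₂ K₁ K₂) := continuous_wS hK₁ sK₁ hK₂ sK₂ hu₁ hu₂
  have hT : TSum u₁ u₂ A₁ A₂ K₁ K₂
      = {x : Fin (p + q) → ℝ | gauge K₁ (fstB x) ≤ A₁ ∧ gauge K₂ (sndB x) ≤ A₂}
        ∩ {x | 0 ≤ wS u₁ u₂ K₁ K₂ x} := by
    ext x
    simp only [TSum, wS, mem_inter_iff, mem_ofPred_eq]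
    constructor
    · rintro ⟨a, b, c⟩
      exact ⟨⟨a, b⟩, by linarith⟩
    · rintro ⟨⟨a, b⟩, c⟩
      exact ⟨a, b, by linarith⟩
  have kK' : IsCompact ({x : Fin (p + q) → ℝ | gauge K₁ (fstB x) ≤ A₁ ∧ gauge K₂ (sndB x) ≤ A₂}
        ∩ {x | 0 ≤ wS u₁ u₂ K₁ K₂ x}) := by
    rw [← hT]; exact kK
  have hBD : PBox (r₁ • K₁) (r₂ • K₂)
      ⊆ {x : Fin (p + q) → ℝ | gauge K₁ (fstB x) ≤ A₁ ∧ gauge K₂ (sndB x) ≤ A₂} := by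
    intro x hx
    exact ⟨((gauge_le_iff hK₁ sK₁ h₁ _).2 hx.1).trans l₁, ((gauge_le_iff hK₂ sK₂ h₂ _).2 hx.2).trans l₂⟩
  have cF : Continuous (fun x : Fin (p + q) → ℝ => gauge K₁ (fstB x)) :=
    (continuous_gaugeK hK₁ sK₁).comp (continuous_pi fun i => continuous_apply _)
  have cS : Continuous (fun x : Fin (p + q) → ℝ => gauge K₂ (sndB x)) :=
    (continuous_gaugeK hK₂ sK₂).comp (continuous_pi fun i => continuous_apply _)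
  have hD0 : (0 : Fin (p + q) → ℝ)
      ∈ interior {x : Fin (p + q) → ℝ | gauge K₁ (fstB x) ≤ A₁ ∧ gauge K₂ (sndB x) ≤ A₂} := by
    have hopen : IsOpen ({x : Fin (p + q) → ℝ | gauge K₁ (fstB x) < A₁}
        ∩ {x : Fin (p + q) → ℝ | gauge K₂ (sndB x) < A₂}) :=
      (isOpen_lt cF continuous_const).inter (isOpen_lt cS continuous_const)
    refine interior_maximal ?_ hopen ?_
    · intro x hx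
      exact ⟨le_of_lt hx.1, le_of_lt hx.2⟩
    · have z1 : fstB (0 : Fin (p + q) → ℝ) = (0 : Fin p → ℝ) := rfl
      have z2 : sndB (0 : Fin (p + q) → ℝ) = (0 : Fin q → ℝ) := rfl
      refine ⟨?_, ?_⟩
      · change gauge K₁ (fstB (0 : Fin (p + q) → ℝ)) < A₁
        rw [z1, gauge_zero]; exact hA₁
      · change gauge K₂ (sndB (0 : Fin (p + q) → ℝ)) < A₂
        rw [z2, gauge_zero]; exact hA₂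
  have hB := integral_wS_PBox hp hq hK₁ sK₁ hK₂ sK₂ hu₁ hu₂ h₁ h₂
  have hKi := integral_wS_eq hK₁ sK₁ hK₂ sK₂ hu₁ hu₂ (TSum u₁ u₂ A₁ A₂ K₁ K₂) kK
  have hbt := bathtub_dom (wS u₁ u₂ K₁ K₂) hw _ kK' (PBox (r₁ • K₁) (r₂ • K₂)) kB hBD
  have hpos := integral_pos_dom (wS u₁ u₂ K₁ K₂) hw _ kK' hD0
    (by rw [wS_zero hu₁ hu₂]; exact one_pos)
  rw [← hT] at hbt hpos
  have hK : ∫ x in TSum u₁ u₂ A₁ A₂ K₁ K₂, wS u₁ u₂ K₁ K₂ x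
      ≤ vol (TSum u₁ u₂ A₁ A₂ K₁ K₂) * (1 - meanU u₁ K₁ r₁ - meanU u₂ K₂ r₂) := by
    rw [hKi]
    have : vol (TSum u₁ u₂ A₁ A₂ K₁ K₂) * (1 - meanU u₁ K₁ r₁ - meanU u₂ K₂ r₂)
        = vol (TSum u₁ u₂ A₁ A₂ K₁ K₂) - vol (TSum u₁ u₂ A₁ A₂ K₁ K₂) * meanU u₁ K₁ r₁
          - vol (TSum u₁ u₂ A₁ A₂ K₁ K₂) * meanU u₂ K₂ r₂ := by ring
    rw [this]
    linarith
  have hS : 0 < 1 - meanU u₁ K₁ r₁ - meanU u₂ K₂ r₂ := by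
    by_contra hcon
    push Not at hcon
    have : vol (TSum u₁ u₂ A₁ A₂ K₁ K₂) * (1 - meanU u₁ K₁ r₁ - meanU u₂ K₂ r₂) ≤ 0 :=
      mul_nonpos_of_nonneg_of_nonpos hV.le hcon
    linarith
  have hfin : vol (PBox (r₁ • K₁) (r₂ • K₂)) * (1 - meanU u₁ K₁ r₁ - meanU u₂ K₂ r₂)
      ≤ vol (TSum u₁ u₂ A₁ A₂ K₁ K₂) * (1 - meanU u₁ K₁ r₁ - meanU u₂ K₂ r₂) := by linarith
  exact le_of_mul_le_mul_right hfin hS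

theorem boxIneq_TSum (hp : 0 < p) (hq : 0 < q) (hK₁ : IsConvexBody K₁) (sK₁ : Solid K₁)
    (bK₁ : BoxIneq K₁) (hK₂ : IsConvexBody K₂) (sK₂ : Solid K₂) (bK₂ : BoxIneq K₂)
    (hu₁ : IsYoung u₁) (hu₂ : IsYoung u₂) (hA₁ : 0 < A₁) (hA₂ : 0 < A₂) :
    BoxIneq (TSum u₁ u₂ A₁ A₂ K₁ K₂) := by
  obtain ⟨r₁, h₁, l₁, f₁, e₁⟩ := block_fst_T (q := q) hp hK₁ sK₁ hK₂ sK₂ hu₁ hu₂ hA₁ hA₂
  obtain ⟨r₂, h₂, l₂, f₂, e₂⟩ := block_snd_T (p := p) hq hK₁ sK₁ hK₂ sK₂ hu₁ hu₂ hA₁ hA₂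
  have hbody := isConvexBody_TSum hK₁ sK₁ hK₂ sK₂ hu₁ hu₂ hA₁ hA₂
  have hV : 0 < vol (TSum u₁ u₂ A₁ A₂ K₁ K₂) := vol_pos hbody
  have hle := vol_PBox_le_T hp hq hK₁ sK₁ hK₂ sK₂ hu₁ hu₂ hA₁ hA₂ h₁ h₂ l₁ l₂ e₁ e₂
  rw [vol_PBox, vol_smul_set hp K₁ h₁, vol_smul_set hq K₂ h₂] at hle
  unfold BoxIneq at bK₁ bK₂ ⊢
  rw [Fin.prod_univ_add]
  have g₁ : ∀ i : Fin p, 4 * ((vol (TSum u₁ u₂ A₁ A₂ K₁ K₂))⁻¹ *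
      ∫ x in TSum u₁ u₂ A₁ A₂ K₁ K₂, |x (Fin.castAdd q i)|)
      = r₁ * (4 * ((vol K₁)⁻¹ * ∫ a in K₁, |a i|)) := by
    intro i
    rw [f₁ i]
    field_simp
  have g₂ : ∀ j : Fin q, 4 * ((vol (TSum u₁ u₂ A₁ A₂ K₁ K₂))⁻¹ *
      ∫ x in TSum u₁ u₂ A₁ A₂ K₁ K₂, |x (Fin.natAdd p j)|)
      = r₂ * (4 * ((vol K₂)⁻¹ * ∫ b in K₂, |b j|)) := by
    intro j
    rw [f₂ j]
    field_simp
  simp_rw [g₁, g₂]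
  have P₁ : ∏ i : Fin p, (r₁ * (4 * ((vol K₁)⁻¹ * ∫ a in K₁, |a i|)))
      = r₁ ^ p * ∏ i : Fin p, (4 * ((vol K₁)⁻¹ * ∫ a in K₁, |a i|)) := by
    rw [Finset.prod_mul_distrib, Finset.prod_const, Finset.card_univ, Fintype.card_fin]
  have P₂ : ∏ j : Fin q, (r₂ * (4 * ((vol K₂)⁻¹ * ∫ b in K₂, |b j|)))
      = r₂ ^ q * ∏ j : Fin q, (4 * ((vol K₂)⁻¹ * ∫ b in K₂, |b j|)) := by
    rw [Finset.prod_mul_distrib, Finset.prod_const, Finset.card_univ, Fintype.card_fin]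
  rw [P₁, P₂]
  have hv₁ : 0 ≤ vol K₁ := (vol_pos hK₁).le
  have n₂ : 0 ≤ ∏ j : Fin q, (4 * ((vol K₂)⁻¹ * ∫ b in K₂, |b j|)) := by
    refine Finset.prod_nonneg fun j _ => ?_
    have : 0 ≤ ∫ b in K₂, |b j| := integral_nonneg fun b => abs_nonneg _
    have hv₂ : 0 ≤ (vol K₂)⁻¹ := inv_nonneg.2 (vol_pos hK₂).le
    positivity
  refine le_trans ?_ hle
  have a₁ : r₁ ^ p * ∏ i : Fin p, (4 * ((vol K₁)⁻¹ * ∫ a in K₁, |a i|)) ≤ r₁ ^ p * vol K₁ :=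
    mul_le_mul_of_nonneg_left bK₁ (pow_nonneg h₁ p)
  have a₂ : r₂ ^ q * ∏ j : Fin q, (4 * ((vol K₂)⁻¹ * ∫ b in K₂, |b j|)) ≤ r₂ ^ q * vol K₂ :=
    mul_le_mul_of_nonneg_left bK₂ (pow_nonneg h₂ q)
  exact mul_le_mul a₁ a₂ (mul_nonneg (pow_nonneg h₂ q) n₂) (mul_nonneg (pow_nonneg h₁ p) hv₁)

end Vale.Agent.Lib.P254.OSum
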