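import Vale.Agent.Lib.P254.OSum.DefsT

/-! T8. Cartesian products and (untruncated) Orlicz sums are truncated Orlicz sums.
ROUTE `isYoung_half_abs`: convexity of `|t| / 2` (`convexOn_abs`/`convexOn_norm`, or by hand with `abs_add_le`),
evenness `abs_neg`, value at `0`, `c = 3`.
ROUTE `PBox_eq_TSum`: `x ∈ K ↔ gauge K x ≤ 1` (`gauge_le_iff hK sK zero_le_one`, `one_smul`); if both gauges are
`≤ 1` (and `≥ 0`) then `|g₁| / 2 + |g₂| / 2 ≤ 1`. -/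

namespace Vale.Agent.Lib.P254.OSum

open MeasureTheory Set Vale.Agent.Lib.P254 Vale.Agent.Lib.P254.Orl
open scoped Pointwise

theorem isYoung_half_abs : IsYoung (fun t : ℝ => |t| / 2) := by
  refine ⟨?_, fun t => by simp only [abs_neg], by simp, ⟨3, by norm_num⟩⟩
  refine ⟨convex_univ, ?_⟩
  intro x _ y _ a b ha hb _
  simp only [smul_eq_mul]
  have h := abs_add_le (a * x) (b * y)
  rw [abs_mul, abs_mul, abs_of_nonneg ha, abs_of_nonneg hb] at h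
  linarith

theorem PBox_eq_TSum {p q : ℕ} {K₁ : Set (Fin p → ℝ)} {K₂ : Set (Fin q → ℝ)}
    (hK₁ : IsConvexBody K₁) (sK₁ : Solid K₁) (hK₂ : IsConvexBody K₂) (sK₂ : Solid K₂) :
    PBox K₁ K₂ = TSum (fun t : ℝ => |t| / 2) (fun t : ℝ => |t| / 2) 1 1 K₁ K₂ := by
  ext x
  have e1 : fstB x ∈ K₁ ↔ gauge K₁ (fstB x) ≤ 1 := by
    rw [gauge_le_iff hK₁ sK₁ zero_le_one, one_smul]
  have e2 : sndB x ∈ K₂ ↔ gauge K₂ (sndB x) ≤ 1 := by
    rw [gauge_le_iff hK₂ sK₂ zero_le_one, one_smul]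
  show (fstB x ∈ K₁ ∧ sndB x ∈ K₂) ↔ (gauge K₁ (fstB x) ≤ 1 ∧ gauge K₂ (sndB x) ≤ 1 ∧
    |gauge K₁ (fstB x)| / 2 + |gauge K₂ (sndB x)| / 2 ≤ 1)
  rw [e1, e2, abs_of_nonneg (gauge_nonneg _), abs_of_nonneg (gauge_nonneg _)]
  constructor
  · rintro ⟨h1, h2⟩
    exact ⟨h1, h2, by linarith⟩
  · rintro ⟨h1, h2, _⟩
    exact ⟨h1, h2⟩

end Vale.Agent.Lib.P254.OSum
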