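import Vale.Agent.Lib.P254.OSum.Iter
import Vale.Agent.Lib.P254.OSum.MainT
import Vale.Agent.Lib.P254.OSum.ProdT

/-! Iterated (truncated) Orlicz sums and products. -/

namespace Vale.Agent.Lib.P254.OSum

open MeasureTheory Set Vale.Agent.Lib.P254 Vale.Agent.Lib.P254.Orl

/-- The smallest class of bodies that contains all generalized Orlicz balls
`{x ∈ ℝ^n : ∑ v_i(x_i) ≤ 1}` (`n ≥ 1`; for `n = 1`: symmetric intervals) and is closed under Orlicz sums,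
truncated Orlicz sums and Cartesian products. -/
inductive IterT : (n : ℕ) → Set (Fin n → ℝ) → Prop
  | base {n : ℕ} (hn : 0 < n) (v : Fin n → ℝ → ℝ) (hv : ∀ i, IsYoung (v i)) : IterT n (OB v)
  | sum {p q : ℕ} {K₁ : Set (Fin p → ℝ)} {K₂ : Set (Fin q → ℝ)} (u₁ u₂ : ℝ → ℝ)
      (h₁ : IterT p K₁) (h₂ : IterT q K₂) (hu₁ : IsYoung u₁) (hu₂ : IsYoung u₂) :
      IterT (p + q) (OrlSum u₁ u₂ K₁ K₂)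
  | tsum {p q : ℕ} {K₁ : Set (Fin p → ℝ)} {K₂ : Set (Fin q → ℝ)} (u₁ u₂ : ℝ → ℝ) (A₁ A₂ : ℝ)
      (h₁ : IterT p K₁) (h₂ : IterT q K₂) (hu₁ : IsYoung u₁) (hu₂ : IsYoung u₂)
      (hA₁ : 0 < A₁) (hA₂ : 0 < A₂) :
      IterT (p + q) (TSum u₁ u₂ A₁ A₂ K₁ K₂)
  | prod {p q : ℕ} {K₁ : Set (Fin p → ℝ)} {K₂ : Set (Fin q → ℝ)}
      (h₁ : IterT p K₁) (h₂ : IterT q K₂) : IterT (p + q) (PBox K₁ K₂)

/-- closure of the class `B` under Cartesian products -/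
theorem props_PBox {p q : ℕ} {K₁ : Set (Fin p → ℝ)} {K₂ : Set (Fin q → ℝ)} (hp : 0 < p) (hq : 0 < q)
    (c₁ : IsConvexBody K₁) (s₁ : Solid K₁) (b₁ : BoxIneq K₁)
    (c₂ : IsConvexBody K₂) (s₂ : Solid K₂) (b₂ : BoxIneq K₂) :
    IsConvexBody (PBox K₁ K₂) ∧ Solid (PBox K₁ K₂) ∧ BoxIneq (PBox K₁ K₂) := by
  rw [PBox_eq_TSum c₁ s₁ c₂ s₂]
  exact ⟨isConvexBody_TSum c₁ s₁ c₂ s₂ isYoung_half_abs isYoung_half_abs one_pos one_pos,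
    solid_TSum c₁ s₁ c₂ s₂ isYoung_half_abs isYoung_half_abs,
    boxIneq_TSum hp hq c₁ s₁ b₁ c₂ s₂ b₂ isYoung_half_abs isYoung_half_abs one_pos one_pos⟩

theorem IterT.props {n : ℕ} {K : Set (Fin n → ℝ)} (h : IterT n K) :
    0 < n ∧ IsConvexBody K ∧ Solid K ∧ BoxIneq K := by
  induction h with
  | base hn v hv =>
    rename_i n
    obtain ⟨m, rfl⟩ : ∃ m, n = m + 1 := ⟨n - 1, by omega⟩
    exact ⟨hn, isConvexBody_OB hv, solid_OB hv, lemmaB m hv⟩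
  | sum u₁ u₂ _ _ hu₁ hu₂ ih₁ ih₂ =>
    obtain ⟨hp, c₁, s₁, b₁⟩ := ih₁
    obtain ⟨hq, c₂, s₂, b₂⟩ := ih₂
    exact ⟨by omega, isConvexBody_OrlSum c₁ s₁ c₂ s₂ hu₁ hu₂, solid_OrlSum c₁ s₁ c₂ s₂ hu₁ hu₂,
      boxIneq_OrlSum hp hq c₁ s₁ b₁ c₂ s₂ b₂ hu₁ hu₂⟩
  | tsum u₁ u₂ A₁ A₂ _ _ hu₁ hu₂ hA₁ hA₂ ih₁ ih₂ =>
    obtain ⟨hp, c₁, s₁, b₁⟩ := ih₁
    obtain ⟨hq, c₂, s₂, b₂⟩ := ih₂
    exact ⟨by omega, isConvexBody_TSum c₁ s₁ c₂ s₂ hu₁ hu₂ hA₁ hA₂,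
      solid_TSum c₁ s₁ c₂ s₂ hu₁ hu₂,
      boxIneq_TSum hp hq c₁ s₁ b₁ c₂ s₂ b₂ hu₁ hu₂ hA₁ hA₂⟩
  | prod _ _ ih₁ ih₂ =>
    obtain ⟨hp, c₁, s₁, b₁⟩ := ih₁
    obtain ⟨hq, c₂, s₂, b₂⟩ := ih₂
    exact ⟨by omega, props_PBox hp hq c₁ s₁ b₁ c₂ s₂ b₂⟩

end Vale.Agent.Lib.P254.OSum
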