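import Vale.Agent.Lib.P254.OSum.Transfer

/-! O16. Integrals over the product `PBox A B = {x | fstB x ∈ A ∧ sndB x ∈ B}`.
ROUTE: `PBox A B = {x | (fstB x, sndB x) ∈ A ×ˢ B}` (`rfl`/`mem_prod`).  `setIntegral_split (A ×ˢ B) G` with
`G z = φ z.1 * 1`, then `MeasureTheory.setIntegral_prod_mul` (no integrability needed) and
`∫ y in B, 1 = vol B` (`setIntegral_const`, `measureReal_def`, `smul_eq_mul`).
`vol_PBox`: `vol_split`, `Measure.volume_eq_prod`, `Measure.prod_prod`, `ENNReal.toReal_mul`.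
`isCompact_PBox`: image of the compact `A ×ˢ B` under the continuous `z ↦ Fin.append z.1 z.2`. -/

namespace Vale.Agent.Lib.P254.OSum

open MeasureTheory Set Vale.Agent.Lib.P254 Vale.Agent.Lib.P254.Orl

variable {p q : ℕ}

private theorem PBox_eq (A : Set (Fin p → ℝ)) (B : Set (Fin q → ℝ)) :
    PBox A B = {x : Fin (p + q) → ℝ | (fstB x, sndB x) ∈ A ×ˢ B} := by
  ext x
  simp only [PBox, mem_ofPred_eq, mem_prod]

private theorem int_one {m : ℕ} (B : Set (Fin m → ℝ)) : ∫ _ in B, (1 : ℝ) = vol B := by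
  rw [setIntegral_const, smul_eq_mul, mul_one, measureReal_def]
  rfl

theorem vol_PBox (A : Set (Fin p → ℝ)) (B : Set (Fin q → ℝ)) :
    vol (PBox A B) = vol A * vol B := by
  rw [PBox_eq, vol_split]
  unfold vol
  rw [Measure.volume_eq_prod, Measure.prod_prod, ENNReal.toReal_mul]

theorem setIntegral_PBox_fst (A : Set (Fin p → ℝ)) (B : Set (Fin q → ℝ)) (φ : (Fin p → ℝ) → ℝ) :
    ∫ x in PBox A B, φ (fstB x) = vol B * ∫ a in A, φ a := by
  rw [PBox_eq]
  have h1 := setIntegral_split (A ×ˢ B) (fun z => φ z.1 * (fun _ : Fin q → ℝ => (1 : ℝ)) z.2)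
  have h2 : ∫ z in A ×ˢ B, φ z.1 * (fun _ : Fin q → ℝ => (1 : ℝ)) z.2
      = (∫ a in A, φ a) * ∫ _ in B, (1 : ℝ) := by
    rw [Measure.volume_eq_prod]
    exact setIntegral_prod_mul φ (fun _ => 1) A B
  rw [h2, int_one] at h1
  simp only [mul_one] at h1
  rw [h1, mul_comm]

theorem setIntegral_PBox_snd (A : Set (Fin p → ℝ)) (B : Set (Fin q → ℝ)) (ψ : (Fin q → ℝ) → ℝ) :
    ∫ x in PBox A B, ψ (sndB x) = vol A * ∫ b in B, ψ b := by
  rw [PBox_eq]
  have h1 := setIntegral_split (A ×ˢ B) (fun z => (fun _ : Fin p → ℝ => (1 : ℝ)) z.1 * ψ z.2)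
  have h2 : ∫ z in A ×ˢ B, (fun _ : Fin p → ℝ => (1 : ℝ)) z.1 * ψ z.2
      = (∫ _ in A, (1 : ℝ)) * ∫ b in B, ψ b := by
    rw [Measure.volume_eq_prod]
    exact setIntegral_prod_mul (fun _ => 1) ψ A B
  rw [h2, int_one] at h1
  simp only [one_mul] at h1
  rw [h1]

theorem isCompact_PBox {A : Set (Fin p → ℝ)} {B : Set (Fin q → ℝ)} (kA : IsCompact A)
    (kB : IsCompact B) : IsCompact (PBox A B) := by
  have himg : PBox A B
      = (fun z : (Fin p → ℝ) × (Fin q → ℝ) => Fin.append z.1 z.2) '' (A ×ˢ B) := by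
    ext x
    constructor
    · intro hx
      exact ⟨(fstB x, sndB x), ⟨hx.1, hx.2⟩, append_split x⟩
    · rintro ⟨z, hz, rfl⟩
      exact ⟨by rw [fstB_append]; exact hz.1, by rw [sndB_append]; exact hz.2⟩
  rw [himg]
  apply (kA.prod kB).image
  apply continuous_pi
  intro i
  refine Fin.addCases (fun j => ?_) (fun j => ?_) i
  · simp only [Fin.append_left]
    exact (continuous_apply j).comp continuous_fst
  · simp only [Fin.append_right]
    exact (continuous_apply j).comp continuous_snd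

end Vale.Agent.Lib.P254.OSum
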