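import Vale.Agent.Lib.P254.OSum.Body
import Vale.Agent.Lib.P254.OSum.PBoxInt
import Vale.Agent.Lib.P254.OSum.Scale

/-! O18. The integral of `wS` over a compact set, and over the product of dilates.
ROUTE `integral_wS_eq`: the three summands are continuous (`continuous_uF`, `continuous_uS`), hence integrable
on the compact `B`; `integral_sub`, `setIntegral_const` (`∫_B 1 = vol B`).
ROUTE `vol_smul_set`: `setIntegral_smul_set hp K hr (fun _ => 1)` and `∫_A 1 = vol A`.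
ROUTE `integral_u_smul_set`: `setIntegral_smul_set hp K hr (fun x => u (gauge K x))`, `gauge_smul_of_nonneg hr`,
`smul_eq_mul`, definition of `meanU`, `vol K ≠ 0` (`vol_pos hK`), `vol_smul_set`.
ROUTE `integral_wS_PBox`: `integral_wS_eq` with `B = PBox (r₁ • K₁) (r₂ • K₂)` (compact: `isCompact_PBox`,
`IsCompact.smul`), `vol_PBox`, `setIntegral_PBox_fst/snd`, `integral_u_smul_set`; `ring`. -/

namespace Vale.Agent.Lib.P254.OSum

open MeasureTheory Set Vale.Agent.Lib.P254 Vale.Agent.Lib.P254.Orl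
open scoped Pointwise

variable {p q : ℕ} {K₁ : Set (Fin p → ℝ)} {K₂ : Set (Fin q → ℝ)} {u₁ u₂ : ℝ → ℝ}

theorem integral_wS_eq (hK₁ : IsConvexBody K₁) (sK₁ : Solid K₁) (hK₂ : IsConvexBody K₂)
    (sK₂ : Solid K₂) (hu₁ : IsYoung u₁) (hu₂ : IsYoung u₂) (B : Set (Fin (p + q) → ℝ))
    (kB : IsCompact B) :
    ∫ x in B, wS u₁ u₂ K₁ K₂ x
      = vol B - (∫ x in B, u₁ (gauge K₁ (fstB x))) - ∫ x in B, u₂ (gauge K₂ (sndB x)) := by
  have i1 : IntegrableOn (fun _ : Fin (p + q) → ℝ => (1 : ℝ)) B :=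
    continuous_const.continuousOn.integrableOn_compact kB
  have i2 : IntegrableOn (fun x : Fin (p + q) → ℝ => u₁ (gauge K₁ (fstB x))) B :=
    (continuous_uF hK₁ sK₁ hu₁).continuousOn.integrableOn_compact kB
  have i3 : IntegrableOn (fun x : Fin (p + q) → ℝ => u₂ (gauge K₂ (sndB x))) B :=
    (continuous_uS hK₂ sK₂ hu₂).continuousOn.integrableOn_compact kB
  have h1 : ∫ _x in B, (1 : ℝ) = vol B := by
    rw [setIntegral_const]
    simp [vol, measureReal_def]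
  have i12 : IntegrableOn (fun x : Fin (p + q) → ℝ => (1 : ℝ) - u₁ (gauge K₁ (fstB x))) B :=
    i1.sub i2
  have e1 : ∫ x in B, wS u₁ u₂ K₁ K₂ x
      = (∫ x in B, ((1 : ℝ) - u₁ (gauge K₁ (fstB x)))) - ∫ x in B, u₂ (gauge K₂ (sndB x)) :=
    integral_sub i12 i3
  have e2 : ∫ x in B, ((1 : ℝ) - u₁ (gauge K₁ (fstB x)))
      = (∫ _x in B, (1 : ℝ)) - ∫ x in B, u₁ (gauge K₁ (fstB x)) :=
    integral_sub i1 i2
  rw [e1, e2, h1]

theorem vol_smul_set {n : ℕ} (hn : 0 < n) (K : Set (Fin n → ℝ)) {r : ℝ} (hr : 0 ≤ r) :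
    vol (r • K) = r ^ n * vol K := by
  have h := setIntegral_smul_set hn K hr (fun _ => (1 : ℝ))
  have h1 : ∀ A : Set (Fin n → ℝ), ∫ _x in A, (1 : ℝ) = vol A := by
    intro A
    rw [setIntegral_const]
    simp [vol, measureReal_def]
  rw [h1, h1] at h
  exact h

theorem integral_u_smul_set {n : ℕ} (hn : 0 < n) {K : Set (Fin n → ℝ)} (hK : IsConvexBody K)
    (u : ℝ → ℝ) {r : ℝ} (hr : 0 ≤ r) :
    ∫ x in r • K, u (gauge K x) = vol (r • K) * meanU u K r := by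
  have hv : 0 < vol K := vol_pos hK
  rw [setIntegral_smul_set hn K hr (fun x => u (gauge K x)), vol_smul_set hn K hr]
  have : ∀ x : Fin n → ℝ, u (gauge K (r • x)) = u (r * gauge K x) := by
    intro x
    rw [gauge_smul_of_nonneg hr, smul_eq_mul]
  simp only [this]
  unfold meanU
  field_simp

theorem integral_wS_PBox (hp : 0 < p) (hq : 0 < q) (hK₁ : IsConvexBody K₁) (sK₁ : Solid K₁)
    (hK₂ : IsConvexBody K₂) (sK₂ : Solid K₂) (hu₁ : IsYoung u₁) (hu₂ : IsYoung u₂)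
    {r₁ r₂ : ℝ} (h₁ : 0 ≤ r₁) (h₂ : 0 ≤ r₂) :
    ∫ x in PBox (r₁ • K₁) (r₂ • K₂), wS u₁ u₂ K₁ K₂ x
      = vol (PBox (r₁ • K₁) (r₂ • K₂)) * (1 - meanU u₁ K₁ r₁ - meanU u₂ K₂ r₂) := by
  have kB : IsCompact (PBox (r₁ • K₁) (r₂ • K₂)) :=
    isCompact_PBox (hK₁.1.smul r₁) (hK₂.1.smul r₂)
  rw [integral_wS_eq hK₁ sK₁ hK₂ sK₂ hu₁ hu₂ _ kB,
    setIntegral_PBox_fst (r₁ • K₁) (r₂ • K₂) (fun a => u₁ (gauge K₁ a)),
    setIntegral_PBox_snd (r₁ • K₁) (r₂ • K₂) (fun b => u₂ (gauge K₂ b)),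
    integral_u_smul_set hp hK₁ u₁ h₁, integral_u_smul_set hq hK₂ u₂ h₂, vol_PBox]
  ring

end Vale.Agent.Lib.P254.OSum
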