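import Vale.Agent.Lib.P254.OSum.BlockT
import Vale.Agent.Lib.P254.OSum.WInt
import Vale.Agent.Lib.P254.OSum.BathtubG

/-! O19. Assembly (helper26's argument): the class of solid convex bodies with `∏ 4 E|x_i| ≤ |K|` is closed
under Orlicz sums.
ROUTE `vol_PBox_le`: `K = OrlSum ..`, `V = vol K > 0`, `m₁ = meanU u₁ K₁ r₁`, `m₂ = meanU u₂ K₂ r₂`,
`B = PBox (r₁ • K₁) (r₂ • K₂)`.  `∫_B wS = vol B (1 - m₁ - m₂)` (`integral_wS_PBox`);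
`∫_K wS = V - ∫_K u₁ - ∫_K u₂ ≤ V (1 - m₁ - m₂)` (`integral_wS_eq`, hypotheses `e₁ e₂`);
`∫_B wS ≤ ∫_K wS` (`bathtub_gen`, rewriting `K` by `OrlSum_eq_wS`); `0 < ∫_K wS` (`integral_pos_gen`, `wS_zero`).
Hence `1 - m₁ - m₂ > 0` and `vol B ≤ V` (as at the end of `Orl.lemmaB`).
ROUTE `boxIneq_OrlSum`: `r₁`, `r₂` from `block_fst`, `block_snd`.  `Fin.prod_univ_add` splits the product;
`4 * (V⁻¹ * (V * r₁ * a)) = r₁ * (4 * a)`; `Finset.prod_mul_distrib`, `Finset.prod_const`, `Finset.card_univ`,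
`Fintype.card_fin`: product `= r₁^p (∏ 4 a_i) r₂^q (∏ 4 a'_j) ≤ r₁^p vol K₁ r₂^q vol K₂ = vol B`
(`vol_PBox`, `vol_smul_set`; the products are `≥ 0`), then `vol_PBox_le`. -/

namespace Vale.Agent.Lib.P254.OSum

open MeasureTheory Set Vale.Agent.Lib.P254 Vale.Agent.Lib.P254.Orl
open scoped Pointwise

variable {p q : ℕ} {K₁ : Set (Fin p → ℝ)} {K₂ : Set (Fin q → ℝ)} {u₁ u₂ : ℝ → ℝ}

theorem vol_PBox_le (hp : 0 < p) (hq : 0 < q) (hK₁ : IsConvexBody K₁) (sK₁ : Solid K₁)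
    (hK₂ : IsConvexBody K₂) (sK₂ : Solid K₂) (hu₁ : IsYoung u₁) (hu₂ : IsYoung u₂)
    {r₁ r₂ : ℝ} (h₁ : 0 ≤ r₁) (h₂ : 0 ≤ r₂)
    (e₁ : vol (OrlSum u₁ u₂ K₁ K₂) * meanU u₁ K₁ r₁
      ≤ ∫ x in OrlSum u₁ u₂ K₁ K₂, u₁ (gauge K₁ (fstB x)))
    (e₂ : vol (OrlSum u₁ u₂ K₁ K₂) * meanU u₂ K₂ r₂
      ≤ ∫ x in OrlSum u₁ u₂ K₁ K₂, u₂ (gauge K₂ (sndB x))) :
    vol (PBox (r₁ • K₁) (r₂ • K₂)) ≤ vol (OrlSum u₁ u₂ K₁ K₂) := by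
  have hbody := isConvexBody_OrlSum hK₁ sK₁ hK₂ sK₂ hu₁ hu₂
  have hV : 0 < vol (OrlSum u₁ u₂ K₁ K₂) := vol_pos hbody
  have kK : IsCompact (OrlSum u₁ u₂ K₁ K₂) := hbody.1
  have kB : IsCompact (PBox (r₁ • K₁) (r₂ • K₂)) :=
    isCompact_PBox (hK₁.1.smul r₁) (hK₂.1.smul r₂)
  have hw : Continuous (wS u₁ u₂ K₁ K₂) := continuous_wS hK₁ sK₁ hK₂ sK₂ hu₁ hu₂
  have kK' : IsCompact {x | 0 ≤ wS u₁ u₂ K₁ K₂ x} := by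
    rw [← OrlSum_eq_wS]; exact kK
  have hB := integral_wS_PBox hp hq hK₁ sK₁ hK₂ sK₂ hu₁ hu₂ h₁ h₂
  have hKi := integral_wS_eq hK₁ sK₁ hK₂ sK₂ hu₁ hu₂ (OrlSum u₁ u₂ K₁ K₂) kK
  have hbt := bathtub_gen (wS u₁ u₂ K₁ K₂) hw kK' (PBox (r₁ • K₁) (r₂ • K₂)) kB
  have hpos := integral_pos_gen (wS u₁ u₂ K₁ K₂) hw kK'
    (by rw [wS_zero hu₁ hu₂]; exact one_pos)
  rw [← OrlSum_eq_wS] at hbt hpos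
  have hK : ∫ x in OrlSum u₁ u₂ K₁ K₂, wS u₁ u₂ K₁ K₂ x
      ≤ vol (OrlSum u₁ u₂ K₁ K₂) * (1 - meanU u₁ K₁ r₁ - meanU u₂ K₂ r₂) := by
    rw [hKi]
    have : vol (OrlSum u₁ u₂ K₁ K₂) * (1 - meanU u₁ K₁ r₁ - meanU u₂ K₂ r₂)
        = vol (OrlSum u₁ u₂ K₁ K₂) - vol (OrlSum u₁ u₂ K₁ K₂) * meanU u₁ K₁ r₁
          - vol (OrlSum u₁ u₂ K₁ K₂) * meanU u₂ K₂ r₂ := by ring
    rw [this]
    linarith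
  have hS : 0 < 1 - meanU u₁ K₁ r₁ - meanU u₂ K₂ r₂ := by
    by_contra hcon
    push Not at hcon
    have : vol (OrlSum u₁ u₂ K₁ K₂) * (1 - meanU u₁ K₁ r₁ - meanU u₂ K₂ r₂) ≤ 0 :=
      mul_nonpos_of_nonneg_of_nonpos hV.le hcon
    linarith
  have hfin : vol (PBox (r₁ • K₁) (r₂ • K₂)) * (1 - meanU u₁ K₁ r₁ - meanU u₂ K₂ r₂)
      ≤ vol (OrlSum u₁ u₂ K₁ K₂) * (1 - meanU u₁ K₁ r₁ - meanU u₂ K₂ r₂) := by linarith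
  exact le_of_mul_le_mul_right hfin hS

theorem boxIneq_OrlSum (hp : 0 < p) (hq : 0 < q) (hK₁ : IsConvexBody K₁) (sK₁ : Solid K₁)
    (bK₁ : BoxIneq K₁) (hK₂ : IsConvexBody K₂) (sK₂ : Solid K₂) (bK₂ : BoxIneq K₂)
    (hu₁ : IsYoung u₁) (hu₂ : IsYoung u₂) : BoxIneq (OrlSum u₁ u₂ K₁ K₂) := by
  obtain ⟨r₁, h₁, f₁, e₁⟩ := block_fst (q := q) hp hK₁ sK₁ hK₂ sK₂ hu₁ hu₂
  obtain ⟨r₂, h₂, f₂, e₂⟩ := block_snd (p := p) hq hK₁ sK₁ hK₂ sK₂ hu₁ hu₂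
  have hbody := isConvexBody_OrlSum hK₁ sK₁ hK₂ sK₂ hu₁ hu₂
  have hV : 0 < vol (OrlSum u₁ u₂ K₁ K₂) := vol_pos hbody
  have hle := vol_PBox_le hp hq hK₁ sK₁ hK₂ sK₂ hu₁ hu₂ h₁ h₂ e₁ e₂
  rw [vol_PBox, vol_smul_set hp K₁ h₁, vol_smul_set hq K₂ h₂] at hle
  unfold BoxIneq at bK₁ bK₂ ⊢
  rw [Fin.prod_univ_add]
  have g₁ : ∀ i : Fin p, 4 * ((vol (OrlSum u₁ u₂ K₁ K₂))⁻¹ *
      ∫ x in OrlSum u₁ u₂ K₁ K₂, |x (Fin.castAdd q i)|)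
      = r₁ * (4 * ((vol K₁)⁻¹ * ∫ a in K₁, |a i|)) := by
    intro i
    rw [f₁ i]
    field_simp
  have g₂ : ∀ j : Fin q, 4 * ((vol (OrlSum u₁ u₂ K₁ K₂))⁻¹ *
      ∫ x in OrlSum u₁ u₂ K₁ K₂, |x (Fin.natAdd p j)|)
      = r₂ * (4 * ((vol K₂)⁻¹ * ∫ b in K₂, |b j|)) := by
    intro j
    rw [f₂ j]
    field_simp
  simp_rw [g₁, g₂]
  have P₁ : ∏ i : Fin p, (r₁ * (4 * ((vol K₁)⁻¹ * ∫ a in K₁, |a i|)))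
      = r₁ ^ p * ∏ i : Fin p, (4 * ((vol K₁)⁻¹ * ∫ a in K₁, |a i|)) := by
    rw [Finset.prod_mul_distrib, Finset.prod_const, Finset.card_univ, Fintype.card_fin]
  have P₂ : ∏ j : Fin q, (r₂ * (4 * ((vol K₂)⁻¹ * ∫ b in K₂, |b j|)))
      = r₂ ^ q * ∏ j : Fin q, (4 * ((vol K₂)⁻¹ * ∫ b in K₂, |b j|)) := by
    rw [Finset.prod_mul_distrib, Finset.prod_const, Finset.card_univ, Fintype.card_fin]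
  rw [P₁, P₂]
  have hv₁ : 0 ≤ vol K₁ := (vol_pos hK₁).le
  have n₂ : 0 ≤ ∏ j : Fin q, (4 * ((vol K₂)⁻¹ * ∫ b in K₂, |b j|)) := by
    refine Finset.prod_nonneg fun j _ => ?_
    have : 0 ≤ ∫ b in K₂, |b j| := integral_nonneg fun b => abs_nonneg _
    have hv₂ : 0 ≤ (vol K₂)⁻¹ := inv_nonneg.2 (vol_pos hK₂).le
    positivity
  refine le_trans ?_ hle
  have a₁ : r₁ ^ p * ∏ i : Fin p, (4 * ((vol K₁)⁻¹ * ∫ a in K₁, |a i|)) ≤ r₁ ^ p * vol K₁ :=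
    mul_le_mul_of_nonneg_left bK₁ (pow_nonneg h₁ p)
  have a₂ : r₂ ^ q * ∏ j : Fin q, (4 * ((vol K₂)⁻¹ * ∫ b in K₂, |b j|)) ≤ r₂ ^ q * vol K₂ :=
    mul_le_mul_of_nonneg_left bK₂ (pow_nonneg h₂ q)
  exact mul_le_mul a₁ a₂ (mul_nonneg (pow_nonneg h₂ q) n₂) (mul_nonneg (pow_nonneg h₁ p) hv₁)

end Vale.Agent.Lib.P254.OSum
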