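import Vale.Agent.Lib.P254.OSum.IterT

/-! X1. Mixed-norm balls are Orlicz sums of `ℓ_a` balls.
ROUTE `isYoung_rpow`: convexity of `t ↦ |t|^a` on `ℝ`: `|α x + β y| ≤ α |x| + β |y|`, `Real.rpow_le_rpow`
and `(convexOn_rpow ha).2` on `Ici 0`; evenness `abs_neg`; `Real.zero_rpow`; `c = 2`: `1 < 2^a`
(`Real.one_lt_rpow`).
ROUTE `gauge_lpBall`: `K = OB (fun _ t => |t|^a)` is a solid convex body (`isConvexBody_OB`, `solid_OB`), so
`gauge_le_iff` gives `gauge K x ≤ s ↔ x ∈ s • K` for `s ≥ 0`.  Show `x ∈ s • K ↔ (∑ |x i|^a)^(1/a) ≤ s` for `s ≥ 0`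
(`s = 0`: both say `x = 0`; `s > 0`: `mem_smul_set_iff_inv_smul_mem₀`, `|s⁻¹ x_i|^a = s^(-a) |x_i|^a`
via `Real.mul_rpow`, then `Real.rpow_le_rpow_iff`/`Real.rpow_inv_le_iff_of_pos`), and conclude by `le_antisymm`
(take `s = gauge K x` and `s = (∑ ..)^(1/a)`). -/

namespace Vale.Agent.Lib.P254.OSum

open MeasureTheory Set Vale.Agent.Lib.P254 Vale.Agent.Lib.P254.Orl
open scoped Pointwise

theorem isYoung_rpow {a : ℝ} (ha : 1 ≤ a) : IsYoung (fun t : ℝ => |t| ^ a) := by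
  have ha0 : 0 < a := by linarith
  refine ⟨⟨convex_univ, ?_⟩, ?_, ?_, ?_⟩
  · intro x _ y _ α β hα hβ hαβ
    have h1 : |α • x + β • y| ≤ α * |x| + β * |y| := by
      calc |α • x + β • y| ≤ |α • x| + |β • y| := abs_add_le _ _
        _ = α * |x| + β * |y| := by
            simp only [smul_eq_mul, abs_mul, abs_of_nonneg hα, abs_of_nonneg hβ]
    have h2 : |α • x + β • y| ^ a ≤ (α * |x| + β * |y|) ^ a :=
      Real.rpow_le_rpow (abs_nonneg _) h1 ha0.le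
    have h3 := (convexOn_rpow ha).2 (x := |x|) (y := |y|) (abs_nonneg x) (abs_nonneg y) hα hβ hαβ
    simp only [smul_eq_mul] at h3 ⊢
    simp only [smul_eq_mul] at h2
    exact le_trans h2 h3
  · intro t
    simp only [abs_neg]
  · simp only [abs_zero]
    exact Real.zero_rpow ha0.ne'
  · refine ⟨2, ?_⟩
    have : |(2 : ℝ)| = 2 := abs_of_pos (by norm_num)
    simp only [this]
    exact Real.one_lt_rpow (by norm_num) ha0

theorem gauge_lpBall {p : ℕ} {a : ℝ} (ha : 1 ≤ a) (x : Fin p → ℝ) :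
    gauge (OB (fun (_ : Fin p) (t : ℝ) => |t| ^ a)) x = (∑ i, |x i| ^ a) ^ (1 / a) := by
  have ha0 : 0 < a := by linarith
  set K : Set (Fin p → ℝ) := OB (fun (_ : Fin p) (t : ℝ) => |t| ^ a) with hKdef
  have hY : ∀ _i : Fin p, IsYoung (fun t : ℝ => |t| ^ a) := fun _ => isYoung_rpow ha
  have hK : IsConvexBody K := isConvexBody_OB hY
  have sK : Solid K := solid_OB hY
  have hS0 : 0 ≤ ∑ i, |x i| ^ a :=
    Finset.sum_nonneg (fun i _ => Real.rpow_nonneg (abs_nonneg _) _)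
  have key : ∀ s : ℝ, 0 < s → (x ∈ s • K ↔ (∑ i, |x i| ^ a) ^ (1 / a) ≤ s) := by
    intro s hs
    rw [mem_smul_set_iff_inv_smul_mem₀ hs.ne']
    have e1 : (s⁻¹ • x ∈ K) ↔ ∑ i, |s⁻¹ * x i| ^ a ≤ 1 := by
      rw [hKdef]
      simp only [OB, mem_ofPred_eq, Pi.smul_apply, smul_eq_mul]
    rw [e1]
    have e2 : ∑ i, |s⁻¹ * x i| ^ a = (s ^ a)⁻¹ * ∑ i, |x i| ^ a := by
      rw [Finset.mul_sum]
      apply Finset.sum_congr rfl
      intro i _
      rw [abs_mul, abs_of_pos (inv_pos.mpr hs), Real.mul_rpow (inv_pos.mpr hs).le (abs_nonneg _),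
        Real.inv_rpow hs.le]
    rw [e2]
    have hsa : 0 < s ^ a := Real.rpow_pos_of_pos hs a
    rw [inv_mul_le_iff₀ hsa, mul_one, one_div, Real.rpow_inv_le_iff_of_pos hS0 hs.le ha0]
  have hg0 : 0 ≤ gauge K x := gauge_nonneg x
  have hT0 : 0 ≤ (∑ i, |x i| ^ a) ^ (1 / a) := Real.rpow_nonneg hS0 _
  apply le_antisymm
  · -- gauge ≤ T + ε for all ε
    apply le_of_forall_pos_le_add
    intro ε hε
    have hs : 0 < (∑ i, |x i| ^ a) ^ (1 / a) + ε := by linarith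
    rw [gauge_le_iff hK sK hs.le, key _ hs]
    linarith
  · apply le_of_forall_pos_le_add
    intro ε hε
    have hs : 0 < gauge K x + ε := by linarith
    rw [← key _ hs, ← gauge_le_iff hK sK hs.le]
    linarith

end Vale.Agent.Lib.P254.OSum
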