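import Vale.Agent.Lib.P254.OSum.Mixed

/-! Mixed-norm balls belong to the class `IterT`. -/

namespace Vale.Agent.Lib.P254.OSum

open MeasureTheory Set Vale.Agent.Lib.P254 Vale.Agent.Lib.P254.Orl

/-- the mixed-norm ball `{(x, y) ∈ ℝ^p × ℝ^q : ‖x‖_a^c + ‖y‖_b^c ≤ 1}` (the `ℓ_c`-sum of `ℓ_a^p` and `ℓ_b^q`) -/
def MixedBall (p q : ℕ) (a b c : ℝ) : Set (Fin (p + q) → ℝ) :=
  {x | (∑ i : Fin p, |x (Fin.castAdd q i)| ^ a) ^ (c / a)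
    + (∑ j : Fin q, |x (Fin.natAdd p j)| ^ b) ^ (c / b) ≤ 1}

theorem MixedBall_eq (p q : ℕ) {a b c : ℝ} (ha : 1 ≤ a) (hb : 1 ≤ b) :
    MixedBall p q a b c = OrlSum (fun t : ℝ => |t| ^ c) (fun t : ℝ => |t| ^ c)
      (OB (fun (_ : Fin p) (t : ℝ) => |t| ^ a)) (OB (fun (_ : Fin q) (t : ℝ) => |t| ^ b)) := by
  ext x
  have n1 : 0 ≤ ∑ i : Fin p, |x (Fin.castAdd q i)| ^ a :=
    Finset.sum_nonneg (fun i _ => Real.rpow_nonneg (abs_nonneg _) _)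
  have n2 : 0 ≤ ∑ j : Fin q, |x (Fin.natAdd p j)| ^ b :=
    Finset.sum_nonneg (fun i _ => Real.rpow_nonneg (abs_nonneg _) _)
  show _ ↔ |gauge (OB (fun (_ : Fin p) (t : ℝ) => |t| ^ a)) (fstB x)| ^ c
    + |gauge (OB (fun (_ : Fin q) (t : ℝ) => |t| ^ b)) (sndB x)| ^ c ≤ 1
  rw [gauge_lpBall ha, gauge_lpBall hb]
  have e1 : |(∑ i : Fin p, |fstB x i| ^ a) ^ (1 / a)| ^ c
      = (∑ i : Fin p, |x (Fin.castAdd q i)| ^ a) ^ (c / a) := by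
    show |(∑ i : Fin p, |x (Fin.castAdd q i)| ^ a) ^ (1 / a)| ^ c = _
    rw [abs_of_nonneg (Real.rpow_nonneg n1 _), ← Real.rpow_mul n1]
    congr 1
    ring
  have e2 : |(∑ j : Fin q, |sndB x j| ^ b) ^ (1 / b)| ^ c
      = (∑ j : Fin q, |x (Fin.natAdd p j)| ^ b) ^ (c / b) := by
    show |(∑ j : Fin q, |x (Fin.natAdd p j)| ^ b) ^ (1 / b)| ^ c = _
    rw [abs_of_nonneg (Real.rpow_nonneg n2 _), ← Real.rpow_mul n2]
    congr 1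
    ring
  rw [e1, e2]
  rfl

theorem iterT_MixedBall {p q : ℕ} (hp : 0 < p) (hq : 0 < q) {a b c : ℝ} (ha : 1 ≤ a) (hb : 1 ≤ b)
    (hc : 1 ≤ c) : IterT (p + q) (MixedBall p q a b c) := by
  rw [MixedBall_eq p q ha hb]
  exact IterT.sum _ _ (IterT.base hp _ (fun _ => isYoung_rpow ha))
    (IterT.base hq _ (fun _ => isYoung_rpow hb)) (isYoung_rpow hc) (isYoung_rpow hc)

end Vale.Agent.Lib.P254.OSum
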