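import Vale.Agent.Lib.P254.OSum.DefsT

/-! Sums with respect to a concave planar profile are truncated Orlicz sums. -/

namespace Vale.Agent.Lib.P254.OSum

open MeasureTheory Set Vale.Agent.Lib.P254 Vale.Agent.Lib.P254.Orl

/-- a concave profile: `h : ℝ → ℝ` concave, even, positive at `0`, negative somewhere -/
structure IsProfile (h : ℝ → ℝ) : Prop where
  conc : ConcaveOn ℝ univ h
  even : ∀ t, h (-t) = h t
  pos : 0 < h 0
  neg : ∃ c, h c < 0

/-- the body `{(x, y) ∈ ℝ^p × ℝ^q : ‖x‖_{K₁} ≤ A, ‖y‖_{K₂} ≤ h(‖x‖_{K₁})}` -/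
def HSum {p q : ℕ} (h : ℝ → ℝ) (A : ℝ) (K₁ : Set (Fin p → ℝ)) (K₂ : Set (Fin q → ℝ)) :
    Set (Fin (p + q) → ℝ) :=
  {x | gauge K₁ (fstB x) ≤ A ∧ gauge K₂ (sndB x) ≤ h (gauge K₁ (fstB x))}

theorem IsProfile.le_zero {h : ℝ → ℝ} (hh : IsProfile h) (t : ℝ) : h t ≤ h 0 := by
  have := hh.conc.2 (mem_univ t) (mem_univ (-t)) (show (0 : ℝ) ≤ 1 / 2 by norm_num)
    (show (0 : ℝ) ≤ 1 / 2 by norm_num) (by norm_num)
  simp only [smul_eq_mul, hh.even] at this
  have e : (1 / 2 : ℝ) * t + 1 / 2 * -t = 0 := by ring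
  rw [e] at this
  linarith

theorem isYoung_of_profile {h : ℝ → ℝ} (hh : IsProfile h) : IsYoung (fun t => 1 - h t / h 0) := by
  have h0 := hh.pos
  refine ⟨⟨convex_univ, ?_⟩, fun t => by simp only [hh.even], by
    show 1 - h 0 / h 0 = 0
    rw [div_self h0.ne']; ring, ?_⟩
  · intro x _ y _ a b ha hb hab
    have := hh.conc.2 (mem_univ x) (mem_univ y) ha hb hab
    simp only [smul_eq_mul] at this ⊢
    have h2 : (a * h x + b * h y) / h 0 ≤ h (a * x + b * y) / h 0 :=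
      div_le_div_of_nonneg_right this h0.le
    have e : a * (1 - h x / h 0) + b * (1 - h y / h 0) = 1 - (a * h x + b * h y) / h 0 := by
      have : a = 1 - b := by linarith
      subst this
      field_simp
      ring
    rw [e]
    linarith
  · obtain ⟨c, hc⟩ := hh.neg
    refine ⟨c, ?_⟩
    have : h c / h 0 < 0 := div_neg_of_neg_of_pos hc h0
    show 1 < 1 - h c / h 0
    linarith

theorem isYoung_abs_div {a : ℝ} (ha : 0 < a) : IsYoung (fun t : ℝ => |t| / a) := by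
  refine ⟨⟨convex_univ, ?_⟩, fun t => by simp only [abs_neg], by simp, ⟨2 * a, ?_⟩⟩
  · intro x _ y _ c d hc hd _
    simp only [smul_eq_mul]
    have h := abs_add_le (c * x) (d * y)
    rw [abs_mul, abs_mul, abs_of_nonneg hc, abs_of_nonneg hd] at h
    have h2 : |c * x + d * y| / a ≤ (c * |x| + d * |y|) / a := div_le_div_of_nonneg_right h ha.le
    have e : c * (|x| / a) + d * (|y| / a) = (c * |x| + d * |y|) / a := by ring
    rw [e]
    exact h2
  · show 1 < |2 * a| / a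
    rw [abs_of_pos (by positivity), mul_div_assoc, div_self ha.ne']
    norm_num

theorem HSum_eq_TSum {p q : ℕ} {h : ℝ → ℝ} (hh : IsProfile h) (A : ℝ) (K₁ : Set (Fin p → ℝ))
    (K₂ : Set (Fin q → ℝ)) :
    HSum h A K₁ K₂ = TSum (fun t => 1 - h t / h 0) (fun t : ℝ => |t| / h 0) A (h 0) K₁ K₂ := by
  have h0 := hh.pos
  ext x
  show (gauge K₁ (fstB x) ≤ A ∧ gauge K₂ (sndB x) ≤ h (gauge K₁ (fstB x))) ↔
    (gauge K₁ (fstB x) ≤ A ∧ gauge K₂ (sndB x) ≤ h 0 ∧
      (1 - h (gauge K₁ (fstB x)) / h 0) + |gauge K₂ (sndB x)| / h 0 ≤ 1)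
  rw [abs_of_nonneg (gauge_nonneg _)]
  have key : (1 - h (gauge K₁ (fstB x)) / h 0) + gauge K₂ (sndB x) / h 0 ≤ 1 ↔
      gauge K₂ (sndB x) ≤ h (gauge K₁ (fstB x)) := by
    have e := div_le_div_iff_of_pos_right (a := gauge K₂ (sndB x))
      (b := h (gauge K₁ (fstB x))) h0
    rw [← e]
    constructor <;> intro hq <;> linarith
  rw [key]
  constructor
  · rintro ⟨h1, h2⟩
    exact ⟨h1, h2.trans (hh.le_zero _), h2⟩
  · rintro ⟨h1, _, h2⟩
    exact ⟨h1, h2⟩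

end Vale.Agent.Lib.P254.OSum
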